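import Vale.Agent.P032.S5.H483.Irr

/-!
# P032: the near/far rule for continua

`|p - q| = 1`, `C` a connected set of points of the closure of `U c` with `q` in `C` and a point `y`
of `C` farther than `1` from `p`: near `p` all points of `U c` are farther than `1` from `q`.
The same with nearer.
`near_far926` : if arbitrarily small continua of the closure of `U c` at `p` and at `q` leave the
circles of the other point, then the points of `U c` near `p` and near `q` are all near, or all far.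
-/

open Set Filter Topology Metric

noncomputable section

namespace Vale.Agent.P032.H926

open Vale.Agent.P032.Six

variable {k : ℕ} {U : Fin k → Set ℂ}

/-- **far** -/
theorem far926 (h : Mx U) {c : Fin k} {C : Set ℂ} (hC : IsPreconnected C)
    (hsub : ∀ x ∈ C, c ∈ Pal U x) {p q y : ℂ} (hq : q ∈ C) (hy : y ∈ C) (h1 : 1 < dist y p) :
    ∀ᶠ x in 𝓝 p, x ∈ U c → 1 < dist x q := by
  have hcont : Continuous fun x : ℂ => dist y x := by fun_prop
  filter_upwards [hcont.continuousAt.eventually (isOpen_Ioi.mem_nhds h1)] with x hx hxU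
  have hx : 1 < dist y x := hx
  by_contra hcon
  push Not at hcon
  have hc2 : ContinuousOn (fun g : ℂ => dist g x) C := by fun_prop
  obtain ⟨g, hg, hg1⟩ := hC.intermediate_value hq hy hc2
    (show (1 : ℝ) ∈ Icc (dist q x) (dist y x) from ⟨by rw [dist_comm]; exact hcon, hx.le⟩)
  have hg2 : dist g x = 1 := hg1
  exact h.notMem' hxU (by rw [dist_comm]; exact hg2) (hsub g hg)

/-- **near** -/
theorem near926 (h : Mx U) {c : Fin k} {C : Set ℂ} (hC : IsPreconnected C)
    (hsub : ∀ x ∈ C, c ∈ Pal U x) {p q y : ℂ} (hq : q ∈ C) (hy : y ∈ C) (h1 : dist y p < 1) :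
    ∀ᶠ x in 𝓝 p, x ∈ U c → dist x q < 1 := by
  have hcont : Continuous fun x : ℂ => dist y x := by fun_prop
  filter_upwards [hcont.continuousAt.eventually (isOpen_Iio.mem_nhds h1)] with x hx hxU
  have hx : dist y x < 1 := hx
  by_contra hcon
  push Not at hcon
  have hc2 : ContinuousOn (fun g : ℂ => dist g x) C := by fun_prop
  obtain ⟨g, hg, hg1⟩ := hC.intermediate_value hy hq hc2
    (show (1 : ℝ) ∈ Icc (dist y x) (dist q x) from ⟨hx.le, by rw [dist_comm]; exact hcon⟩)
  have hg2 : dist g x = 1 := hg1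
  exact h.notMem' hxU (by rw [dist_comm]; exact hg2) (hsub g hg)

/-- small continua of the closure of `U c` at `q` which are not in the unit circle about `p` -/
def Att926 (U : Fin k → Set ℂ) (c : Fin k) (q p : ℂ) : Prop :=
  ∀ ε > 0, ∃ C : Set ℂ, IsPreconnected C ∧ q ∈ C ∧ C ⊆ ball q ε ∧ (∀ x ∈ C, c ∈ Pal U x) ∧
    ∃ y ∈ C, dist y p ≠ 1

/-- **the rule near/far** for a colour attached to `p` and to `q` -/
theorem near_far926 (h : Mx U) {c : Fin k} {p q : ℂ} (hq : Att926 U c q p) (hp : Att926 U c p q) :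
    ((∀ᶠ x in 𝓝 p, x ∈ U c → dist x q < 1) ∧ (∀ᶠ x in 𝓝 q, x ∈ U c → dist x p < 1)) ∨
    ((∀ᶠ x in 𝓝 p, x ∈ U c → 1 < dist x q) ∧ (∀ᶠ x in 𝓝 q, x ∈ U c → 1 < dist x p)) := by
  -- from a one-sided rule near `q` and the attachment at `q` to the same rule near `p`
  have key : ∀ {p q : ℂ}, Att926 U c q p →
      ((∀ᶠ x in 𝓝 q, x ∈ U c → dist x p < 1) → ∀ᶠ x in 𝓝 p, x ∈ U c → dist x q < 1) ∧
      ((∀ᶠ x in 𝓝 q, x ∈ U c → 1 < dist x p) → ∀ᶠ x in 𝓝 p, x ∈ U c → 1 < dist x q) := by
    intro p q hq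
    constructor
    · intro h1
      obtain ⟨ε, hε, hb⟩ := Metric.eventually_nhds_iff_ball.1 h1
      obtain ⟨C, hC, hqC, hCb, hCs, y, hy, hyp⟩ := hq ε hε
      refine near926 h hC hCs hqC hy (lt_of_le_of_ne ?_ hyp)
      by_contra hcon
      push Not at hcon
      have h2 : ∃ᶠ x in 𝓝 y, x ∈ U c := mem_closure_iff_frequently.1 (hCs y hy)
      have hcont : Continuous fun x : ℂ => dist x p := by fun_prop
      have h3 : ∀ᶠ x in 𝓝 y, x ∈ ball q ε := isOpen_ball.mem_nhds (hCb hy)
      have h4 : ∀ᶠ x in 𝓝 y, 1 < dist x p :=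
        hcont.continuousAt.eventually (isOpen_Ioi.mem_nhds hcon)
      obtain ⟨x, hx, hx1, hx2⟩ := (h2.and_eventually (h3.and h4)).exists
      exact absurd (hb x hx1 hx) (not_lt.2 (le_of_lt hx2))
    · intro h1
      obtain ⟨ε, hε, hb⟩ := Metric.eventually_nhds_iff_ball.1 h1
      obtain ⟨C, hC, hqC, hCb, hCs, y, hy, hyp⟩ := hq ε hε
      refine far926 h hC hCs hqC hy (lt_of_le_of_ne ?_ hyp.symm)
      by_contra hcon
      push Not at hcon
      have h2 : ∃ᶠ x in 𝓝 y, x ∈ U c := mem_closure_iff_frequently.1 (hCs y hy)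
      have hcont : Continuous fun x : ℂ => dist x p := by fun_prop
      have h3 : ∀ᶠ x in 𝓝 y, x ∈ ball q ε := isOpen_ball.mem_nhds (hCb hy)
      have h4 : ∀ᶠ x in 𝓝 y, dist x p < 1 :=
        hcont.continuousAt.eventually (isOpen_Iio.mem_nhds hcon)
      obtain ⟨x, hx, hx1, hx2⟩ := (h2.and_eventually (h3.and h4)).exists
      exact absurd (hb x hx1 hx) (not_lt.2 (le_of_lt hx2))
  obtain ⟨C, hC, hqC, -, hCs, y, hy, hyp⟩ := hq 1 one_pos
  rcases lt_or_gt_of_ne hyp with h1 | h1
  · have h2 := near926 h hC hCs hqC hy h1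
    exact Or.inl ⟨h2, (key hp).1 h2⟩
  · have h2 := far926 h hC hCs hqC hy h1
    exact Or.inr ⟨h2, (key hp).2 h2⟩

end Vale.Agent.P032.H926
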