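import Vale.Agent.P032.H926.Unico

/-!
# P032: filled bounded open sets

`Fill W`: the points whose component in `Wᶜ` is bounded (`W` and its holes).
-/

open Set Filter Topology Metric

noncomputable section

namespace Vale.Agent.P032.H926

/-- the set with its holes -/
def Fill (W : Set ℂ) : Set ℂ := {h | Bornology.IsBounded (connectedComponentIn Wᶜ h)}

theorem subset_fill (W : Set ℂ) : W ⊆ Fill W := by
  intro h hh
  have h1 : connectedComponentIn Wᶜ h = ∅ := connectedComponentIn_eq_empty fun h2 => h2 hh
  show Bornology.IsBounded (connectedComponentIn Wᶜ h)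
  rw [h1]
  exact Bornology.isBounded_empty

/-- the complement of an open ball is connected -/
theorem far_pre (c : ℂ) {R : ℝ} (hR : 0 < R) : IsPreconnected {y : ℂ | R ≤ dist y c} := by
  have h1 : {y : ℂ | R ≤ dist y c} =
      (fun p : ℝ × ℝ => c + p.1 * Complex.exp (p.2 * Complex.I)) '' (Ici R ×ˢ univ) := by
    ext y
    constructor
    · intro hy
      refine ⟨(‖y - c‖, Complex.arg (y - c)), ⟨?_, trivial⟩, ?_⟩
      · show R ≤ ‖y - c‖
        rw [← dist_eq_norm]
        exact hy
      · show c + (‖y - c‖ : ℂ) * Complex.exp (Complex.arg (y - c) * Complex.I) = y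
        rw [Complex.norm_mul_exp_arg_mul_I]
        ring
    · rintro ⟨⟨r, t⟩, ⟨hr, -⟩, rfl⟩
      have hr : R ≤ r := hr
      show R ≤ dist (c + (r : ℂ) * Complex.exp (t * Complex.I)) c
      rw [dist_eq_norm, add_sub_cancel_left, norm_mul, Complex.norm_exp_ofReal_mul_I, mul_one,
        Complex.norm_real, Real.norm_eq_abs, abs_of_nonneg (by linarith)]
      exact hr
  rw [h1]
  refine (isPreconnected_Ici.prod isPreconnected_univ).image _ ?_
  fun_prop

theorem far_unbounded (c : ℂ) (R : ℝ) : ¬ Bornology.IsBounded {y : ℂ | R ≤ dist y c} := by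
  intro hb
  obtain ⟨S, hS⟩ := hb.subset_closedBall c
  have h1 : c + ((|R| + |S| + 1 : ℝ) : ℂ) ∈ closedBall c S := by
    apply hS
    show R ≤ dist _ c
    rw [dist_eq_norm, add_sub_cancel_left, Complex.norm_real, Real.norm_eq_abs,
      abs_of_nonneg (by positivity)]
    linarith [le_abs_self R, abs_nonneg S]
  rw [mem_closedBall, dist_eq_norm, add_sub_cancel_left, Complex.norm_real, Real.norm_eq_abs,
    abs_of_nonneg (by positivity)] at h1
  linarith [le_abs_self S, abs_nonneg R]

variable {W W' : Set ℂ} {c : ℂ} {R : ℝ}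

/-- the far points are outside the filled set -/
theorem far_notMem (hR : 0 < R) (hW : W ⊆ ball c R) {y : ℂ} (hy : R ≤ dist y c) : y ∉ Fill W := by
  intro hcon
  have h1 : {y : ℂ | R ≤ dist y c} ⊆ Wᶜ := by
    intro w hw hwW
    have h2 := hW hwW
    rw [mem_ball] at h2
    have h3 : R ≤ dist w c := hw
    linarith
  have h2 : Bornology.IsBounded (connectedComponentIn Wᶜ y) := hcon
  exact far_unbounded c R (h2.subset ((far_pre c hR).subset_connectedComponentIn hy h1))

theorem fill_subset (hR : 0 < R) (hW : W ⊆ ball c R) : Fill W ⊆ ball c R := by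
  intro y hy
  rw [mem_ball]
  by_contra hcon
  push Not at hcon
  exact far_notMem hR hW hcon hy

theorem fill_bounded (hW : Bornology.IsBounded W) : Bornology.IsBounded (Fill W) := by
  obtain ⟨R, hR⟩ := hW.subset_ball (0 : ℂ)
  have h1 : W ⊆ ball (0 : ℂ) (|R| + 1) := hR.trans (ball_subset_ball (by
    linarith [le_abs_self R]))
  exact isBounded_ball.subset (fill_subset (by positivity) h1)

/-- the exterior is one component -/
theorem ext_eq (hR : 0 < R) (hW : W ⊆ ball c R) {y : ℂ} (hy : y ∉ Fill W) :
    (Fill W)ᶜ = connectedComponentIn Wᶜ y := by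
  have hfar : {y : ℂ | R ≤ dist y c} ⊆ Wᶜ := by
    intro w hw hwW
    have h2 := hW hwW
    rw [mem_ball] at h2
    have h3 : R ≤ dist w c := hw
    linarith
  have key : ∀ w, w ∉ Fill W → ∀ v, R ≤ dist v c → v ∈ connectedComponentIn Wᶜ w := by
    intro w hw v hv
    have h1 : ¬ connectedComponentIn Wᶜ w ⊆ ball c R := fun h2 => hw (isBounded_ball.subset h2)
    obtain ⟨u, hu, hub⟩ := not_subset.1 h1
    rw [mem_ball, not_lt] at hub
    have h2 := (far_pre c hR).subset_connectedComponentIn (x := u) hub hfar
    rw [connectedComponentIn_eq hu]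
    exact h2 hv
  have hne : ∃ v : ℂ, R ≤ dist v c := by
    refine ⟨c + (R : ℂ), ?_⟩
    rw [dist_eq_norm, add_sub_cancel_left, Complex.norm_real, Real.norm_eq_abs, abs_of_pos hR]
  obtain ⟨v, hv⟩ := hne
  ext w
  constructor
  · intro hw
    have h1 := key w hw v hv
    have h2 := key y hy v hv
    rw [connectedComponentIn_eq h2, ← connectedComponentIn_eq h1]
    exact mem_connectedComponentIn fun hwW => hw (subset_fill W hwW)
  · intro hw hwF
    have h1 : Bornology.IsBounded (connectedComponentIn Wᶜ w) := hwF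
    rw [← connectedComponentIn_eq hw] at h1
    exact hy h1

theorem exists_bound (hW : Bornology.IsBounded W) : ∃ R > 0, W ⊆ ball (0 : ℂ) R := by
  obtain ⟨R, hR⟩ := hW.subset_ball (0 : ℂ)
  exact ⟨|R| + 1, by positivity, hR.trans (ball_subset_ball (by linarith [le_abs_self R]))⟩

theorem ext_pre (hW : Bornology.IsBounded W) : IsPreconnected (Fill W)ᶜ := by
  obtain ⟨R, hR, hWR⟩ := exists_bound hW
  rcases (Fill W)ᶜ.eq_empty_or_nonempty with h | ⟨y, hy⟩
  · rw [h]; exact isPreconnected_empty
  · rw [ext_eq hR hWR hy]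
    exact isPreconnected_connectedComponentIn

/-- components of closed sets are closed -/
theorem isClosed_comp {F : Set ℂ} (hF : IsClosed F) (x : ℂ) :
    IsClosed (connectedComponentIn F x) := by
  by_cases hx : x ∈ F
  · have h1 : closure (connectedComponentIn F x) ⊆ connectedComponentIn F x :=
      isPreconnected_connectedComponentIn.closure.subset_connectedComponentIn
        (subset_closure (mem_connectedComponentIn hx))
        (hF.closure_subset_iff.2 (connectedComponentIn_subset F x))
    exact isClosed_of_closure_subset h1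
  · rw [connectedComponentIn_eq_empty hx]
    exact isClosed_empty

theorem isOpen_fill (hW : Bornology.IsBounded W) (ho : IsOpen W) : IsOpen (Fill W) := by
  obtain ⟨R, hR, hWR⟩ := exists_bound hW
  rw [← isClosed_compl_iff]
  rcases (Fill W)ᶜ.eq_empty_or_nonempty with h | ⟨y, hy⟩
  · rw [h]; exact isClosed_empty
  · rw [ext_eq hR hWR hy]
    exact isClosed_comp ho.isClosed_compl y

/-- a component of `Wᶜ` touches the closure of `W` -/
theorem touch (hne : W.Nonempty) (ho : IsOpen W) {h : ℂ} (hh : h ∉ W) :
    ∃ y ∈ connectedComponentIn Wᶜ h, y ∈ closure W := by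
  by_contra hcon
  push Not at hcon
  have hop : IsOpen (connectedComponentIn Wᶜ h) := by
    rw [isOpen_iff_mem_nhds]
    intro y hy
    obtain ⟨r, hr, hb⟩ := Metric.isOpen_iff.1 isClosed_closure.isOpen_compl y (hcon y hy)
    have h1 : ball y r ⊆ Wᶜ := fun w hw hwW => hb hw (subset_closure hwW)
    have h2 := (convex_ball y r).isPreconnected.subset_connectedComponentIn (mem_ball_self hr) h1
    rw [← connectedComponentIn_eq hy] at h2
    exact mem_of_superset (ball_mem_nhds y hr) h2
  have hcl := isClosed_comp ho.isClosed_compl h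
  have hu : connectedComponentIn Wᶜ h = univ :=
    IsClopen.eq_univ ⟨hcl, hop⟩ ⟨h, mem_connectedComponentIn hh⟩
  obtain ⟨w, hw⟩ := hne
  have h1 : w ∈ connectedComponentIn Wᶜ h := by rw [hu]; trivial
  exact connectedComponentIn_subset _ _ h1 hw

theorem union_pre (hc : IsPreconnected W) (hne : W.Nonempty) (ho : IsOpen W) (h : ℂ) :
    IsPreconnected (W ∪ connectedComponentIn Wᶜ h) := by
  by_cases hh : h ∈ W
  · have h0 : connectedComponentIn Wᶜ h = ∅ := connectedComponentIn_eq_empty fun h2 => h2 hh
    rw [h0, union_empty]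
    exact hc
  · obtain ⟨y, hy, hyc⟩ := touch hne ho hh
    have h1 : IsPreconnected (insert y W) :=
      hc.subset_closure (subset_insert _ _) (insert_subset hyc subset_closure)
    have h2 := h1.union y (mem_insert _ _) hy isPreconnected_connectedComponentIn
    have h3 : insert y W ∪ connectedComponentIn Wᶜ h = W ∪ connectedComponentIn Wᶜ h := by
      ext w
      simp only [mem_union, mem_insert_iff]
      constructor
      · rintro ((rfl | h4) | h4)
        · exact Or.inr hy
        · exact Or.inl h4
        · exact Or.inr h4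
      · rintro (h4 | h4)
        · exact Or.inl (Or.inr h4)
        · exact Or.inr h4
    rwa [h3] at h2

theorem comp_subset_fill {h : ℂ} (hh : h ∈ Fill W) : connectedComponentIn Wᶜ h ⊆ Fill W := by
  intro y hy
  show Bornology.IsBounded (connectedComponentIn Wᶜ y)
  rw [← connectedComponentIn_eq hy]
  exact hh

theorem fill_pre (hc : IsPreconnected W) (hne : W.Nonempty) (ho : IsOpen W) :
    IsPreconnected (Fill W) := by
  obtain ⟨w, hw⟩ := hne
  refine isPreconnected_of_forall w fun y hy => ?_
  refine ⟨W ∪ connectedComponentIn Wᶜ y, union_subset (subset_fill W) (comp_subset_fill hy),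
    Or.inl hw, ?_, union_pre hc ⟨w, hw⟩ ho y⟩
  by_cases hyW : y ∈ W
  · exact Or.inl hyW
  · exact Or.inr (mem_connectedComponentIn hyW)

/-- a connected set off `W` with a point in a hole is in the filled set -/
theorem subset_fill_of {S : Set ℂ} (hS : IsPreconnected S) (hSW : Disjoint S W) {y : ℂ}
    (hy : y ∈ S) (hyF : y ∈ Fill W) : S ⊆ Fill W := by
  have h1 : S ⊆ Wᶜ := fun s hs hsW => Set.disjoint_left.1 hSW hs hsW
  exact (hS.subset_connectedComponentIn hy h1).trans (comp_subset_fill hyF)

/-- monotonicity for disjoint sets -/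
theorem fill_mono_of (hW : Bornology.IsBounded W) (hW' : Bornology.IsBounded W')
    (h : W' ⊆ Fill W) : Fill W' ⊆ Fill W := by
  rw [← compl_subset_compl]
  intro y hy hyF
  -- the exterior of `W` is connected, unbounded and off `W'`
  obtain ⟨R, hR, hWR⟩ := exists_bound hW
  have hunb : ¬ Bornology.IsBounded (Fill W)ᶜ := by
    intro hb
    refine far_unbounded 0 R (hb.subset fun y hy => ?_)
    exact far_notMem hR hWR hy
  have h1 : (Fill W)ᶜ ⊆ Fill W' := by
    refine subset_fill_of (ext_pre hW) ?_ hy hyF
    rw [Set.disjoint_left]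
    intro s hs hs'
    exact hs (h hs')
  exact hunb ((fill_bounded hW').subset h1)

/-- **filled sets of disjoint connected open sets are nested or disjoint** -/
theorem nested (hb : Bornology.IsBounded W) (hb' : Bornology.IsBounded W')
    (ho : IsOpen W) (ho' : IsOpen W') (hc : IsPreconnected W) (hc' : IsPreconnected W')
    (hd : Disjoint W W') {h : ℂ} (hh : h ∈ Fill W) (hh' : h ∈ Fill W') :
    Fill W ⊆ Fill W' ∨ Fill W' ⊆ Fill W := by
  by_cases h1 : (W ∩ Fill W').Nonempty
  · left
    obtain ⟨w, hw, hwF⟩ := h1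
    exact fill_mono_of hb' hb (subset_fill_of hc hd hw hwF)
  by_cases h2 : (W' ∩ Fill W).Nonempty
  · right
    obtain ⟨w, hw, hwF⟩ := h2
    exact fill_mono_of hb hb' (subset_fill_of hc' hd.symm hw hwF)
  exfalso
  have hhW : h ∉ W := fun hw => h1 ⟨h, hw, hh'⟩
  have hhW' : h ∉ W' := fun hw => h2 ⟨h, hw, hh⟩
  -- the component in `W'ᶜ` is in `Wᶜ`
  have hsub : connectedComponentIn W'ᶜ h ⊆ Wᶜ := by
    intro y hy hyW
    exact h1 ⟨y, hyW, comp_subset_fill hh' hy⟩
  have hne : W'.Nonempty := by
    by_contra hcon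
    rw [not_nonempty_iff_eq_empty] at hcon
    subst hcon
    have h3 : connectedComponentIn (∅ : Set ℂ)ᶜ h = univ := by
      rw [compl_empty, connectedComponentIn_univ]
      exact PreconnectedSpace.connectedComponent_eq_univ h
    have h4 : Bornology.IsBounded (connectedComponentIn (∅ : Set ℂ)ᶜ h) := hh'
    rw [h3] at h4
    exact far_unbounded 0 0 (h4.subset (subset_univ _))
  have h3 := union_pre hc' hne ho' h
  have h4 : W' ∪ connectedComponentIn W'ᶜ h ⊆ Wᶜ :=
    union_subset (fun y hy hyW => Set.disjoint_left.1 hd hyW hy) hsub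
  have h5 := h3.subset_connectedComponentIn (Or.inr (mem_connectedComponentIn hhW')) h4
  obtain ⟨w, hw⟩ := hne
  exact h2 ⟨w, hw, comp_subset_fill hh (h5 (Or.inl hw))⟩

end Vale.Agent.P032.H926
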