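import Vale.Agent.P032.H926.Closing
import Vale.Agent.P032.S5.H483.Irr

/-!
# P032: the closing theorem

`Irr.no_holes` : the filled tiles are in the open set of their colour.
`Irr.close` : a closed set which is relatively open in the set of the points with at least two
colours and which meets `XX U` contains `XX U`.
-/

open Set Filter Topology Metric

noncomputable section

namespace Vale.Agent.P032.Six

open Vale.Agent.P032.H926

variable {k : ℕ} {U : Fin k → Set ℂ} {T : ℂ → Set (Fin k)}

/-- the tiles: components of the sets of the points with exactly one colour -/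
def Tiles (T : ℂ → Set (Fin k)) : Set (Set ℂ) :=
  {W | ∃ i x, T x = {i} ∧ W = connectedComponentIn {y | T y = {i}} x}

namespace Irr

theorem isOpen_single (h : Irr U T) (i : Fin k) : IsOpen {w | T w = {i}} := by
  rw [isOpen_iff_mem_nhds]
  intro w hw
  have hw : T w = {i} := hw
  filter_upwards [h.nhd w] with v hv
  obtain ⟨j, hj⟩ := h.ne v
  rw [hw] at hv
  have h1 : j = i := by simpa using hv hj
  exact Subset.antisymm hv (by rintro m rfl; exact h1 ▸ hj)

/-- a connected subset of `U i` is in the open unit ball about each of its points -/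
theorem sub_ball (h : Irr U T) {i : Fin k} {W : Set ℂ} (hc : IsPreconnected W) (hW : W ⊆ U i)
    {x : ℂ} (hx : x ∈ W) : W ⊆ ball x 1 := by
  intro y hy
  rw [mem_ball]
  by_contra hcon
  push Not at hcon
  have hcont : Continuous fun y : ℂ => dist y x := by fun_prop
  obtain ⟨w, hw, hw1⟩ := hc.intermediate_value hx hy hcont.continuousOn
    (show (1 : ℝ) ∈ Icc (dist x x) (dist y x) by rw [dist_self]; exact ⟨zero_le_one, hcon⟩)
  exact h.mx.notMem' (hW hw) hw1 (subset_closure (hW hx))

theorem tile_val {T : ℂ → Set (Fin k)} {i : Fin k} {x y : ℂ}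
    (hy : y ∈ connectedComponentIn {y | T y = {i}} x) : T y = {i} :=
  connectedComponentIn_subset {y | T y = {i}} x hy

theorem tile_sub (h : Irr U T) {i : Fin k} {x : ℂ} :
    connectedComponentIn {y | T y = {i}} x ⊆ U i := by
  intro y hy
  exact h.mem_of_single (tile_val hy).subset

theorem fam (h : Irr U T) : Fam (Tiles T) := by
  refine ⟨?_, ?_, ?_, ?_, ?_⟩
  · rintro W ⟨i, x, -, rfl⟩
    exact (h.isOpen_single i).connectedComponentIn
  · rintro W ⟨i, x, -, rfl⟩
    exact isPreconnected_connectedComponentIn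
  · rintro W ⟨i, x, hx, rfl⟩
    exact ⟨x, mem_connectedComponentIn hx⟩
  · rintro W ⟨i, x, -, rfl⟩ y hy
    exact h.sub_ball isPreconnected_connectedComponentIn h.tile_sub hy
  · rintro W ⟨i, x, -, rfl⟩ W' ⟨i', x', -, rfl⟩ hne
    rw [Set.disjoint_left]
    intro y hy hy'
    have h1 : T y = {i} := tile_val hy
    have h2 : T y = {i'} := tile_val hy'
    have h3 : i = i' := by
      rw [h1] at h2
      exact singleton_injective h2
    subst h3
    exact hne ((connectedComponentIn_eq hy).trans (connectedComponentIn_eq hy').symm)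

/-- **no holes** : an open connected set of points of colour `i`, filled, is in `U i` -/
theorem fill_sub (h : Irr U T) {i : Fin k} {W : Set ℂ} (hc : IsPreconnected W) (hW : W ⊆ U i)
    (hne : W.Nonempty) : Fill W ⊆ U i := by
  intro p hp
  by_contra hcon
  obtain ⟨y, hy, hi⟩ := h.partner hcon
  obtain ⟨x, hx⟩ := hne
  have hrank : 1 < Module.rank ℝ ℂ := by
    rw [Complex.rank_real_complex]
    exact Nat.one_lt_ofNat
  have hS := isPreconnected_sphere hrank y (1 : ℝ)
  have hSW : Disjoint (sphere y (1 : ℝ)) W := by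
    rw [Set.disjoint_left]
    intro s hs hsW
    exact h.mx.notMem hi hs (hW hsW)
  have h1 : sphere y (1 : ℝ) ⊆ Fill W := subset_fill_of hS hSW (by rw [mem_sphere]; exact hy) hp
  have h2 := h1.trans (fill_subset one_pos (h.sub_ball hc hW hx))
  have h3 : y + 1 ∈ ball x 1 := h2 (by rw [mem_sphere, dist_eq_norm]; simp)
  have h4 : y - 1 ∈ ball x 1 := h2 (by rw [mem_sphere, dist_eq_norm]; simp)
  rw [mem_ball] at h3 h4
  have h5 := dist_triangle_right (y + 1) (y - 1) x
  have h6 : dist (y + 1) (y - 1) = 2 := by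
    rw [dist_eq_norm]
    have : y + 1 - (y - 1) = 2 := by ring
    rw [this]
    norm_num
  linarith

theorem XX_sub (h : Irr U T) : XX U ⊆ ZZ (Tiles T) := by
  rintro x hx W ⟨i, y, hy, rfl⟩ hxF
  exact hx i (h.fill_sub isPreconnected_connectedComponentIn h.tile_sub
    ⟨y, mem_connectedComponentIn hy⟩ hxF)

theorem two_of_ZZ (h : Irr U T) {x : ℂ} (hx : x ∈ ZZ (Tiles T)) : 2 ≤ (T x).ncard := by
  by_contra hcon
  obtain ⟨i, hi⟩ := h.ne x
  have h1 : T x = {i} := by
    refine Subset.antisymm (fun m hm => ?_) (by rintro m rfl; exact hi)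
    exact (Set.ncard_le_one (Set.toFinite _)).1 (by omega) m hm i hi
  exact hx _ ⟨i, x, h1, rfl⟩ (subset_fill _ (mem_connectedComponentIn h1))

theorem isClosed_ZZ (h : Irr U T) : IsClosed (ZZ (Tiles T)) := by
  have h1 : ZZ (Tiles T) = ⋂ W ∈ Tiles T, (Fill W)ᶜ := by
    ext y
    simp [ZZ]
  rw [h1]
  exact isClosed_biInter fun W hW => (isOpen_fill (h.fam.isBdd hW) (h.fam.opn W hW)).isClosed_compl

/-- **The closing theorem.** -/
theorem close (h : Irr U T) {Ω : Set ℂ} (hΩ : IsClosed Ω)
    (hop : ∀ x ∈ Ω, ∀ᶠ y in 𝓝 x, 2 ≤ (T y).ncard → y ∈ Ω) {z : ℂ} (hz : z ∈ Ω)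
    (hzX : z ∈ XX U) : XX U ⊆ Ω := by
  have hQ : IsClosed (ZZ (Tiles T) \ Ω) := by
    refine isClosed_of_closure_subset fun x hx => ?_
    have hxZ : x ∈ ZZ (Tiles T) := h.isClosed_ZZ.closure_subset_iff.2 sdiff_subset hx
    refine ⟨hxZ, fun hxΩ => ?_⟩
    obtain ⟨y, hy, hyQ⟩ := ((mem_closure_iff_frequently.1 hx).and_eventually (hop x hxΩ)).exists
    exact hy.2 (hyQ (h.two_of_ZZ hy.1))
  rcases h.fam.closing (h.isClosed_ZZ.inter hΩ) hQ (by
    rw [Set.disjoint_left]
    rintro y ⟨-, hy⟩ ⟨-, hy'⟩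
    exact hy' hy) (inter_union_sdiff _ _) with h1 | h1
  · have : z ∈ ZZ (Tiles T) ∩ Ω := ⟨h.XX_sub hzX, hz⟩
    rw [h1] at this
    exact absurd this (notMem_empty z)
  · intro x hx
    by_contra hcon
    have : x ∈ ZZ (Tiles T) \ Ω := ⟨h.XX_sub hx, hcon⟩
    rw [h1] at this
    exact this

end Irr

end Vale.Agent.P032.Six
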