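import Vale.Agent.P032.H926.Fill

/-!
# P032: connectedness of the complement of the filled tiles

`Fam 𝒯`: pairwise disjoint open connected sets, each in the open unit ball about each of its points.
`Fam.closing`: the complement of the union of the filled sets is connected (in the sense of closed
partitions).
-/

open Set Filter Topology Metric

noncomputable section

namespace Vale.Agent.P032.H926

/-- a family of tiles -/
structure Fam (𝒯 : Set (Set ℂ)) : Prop where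
  opn : ∀ W ∈ 𝒯, IsOpen W
  pre : ∀ W ∈ 𝒯, IsPreconnected W
  ne : ∀ W ∈ 𝒯, W.Nonempty
  bd : ∀ W ∈ 𝒯, ∀ x ∈ W, W ⊆ ball x 1
  dis : ∀ W ∈ 𝒯, ∀ W' ∈ 𝒯, W ≠ W' → Disjoint W W'

/-- the union of the filled tiles around `W` -/
def VV (𝒯 : Set (Set ℂ)) (W : Set ℂ) : Set ℂ := {y | ∃ W' ∈ 𝒯, Fill W ⊆ Fill W' ∧ y ∈ Fill W'}

/-- the rest -/
def ZZ (𝒯 : Set (Set ℂ)) : Set ℂ := {y | ∀ W ∈ 𝒯, y ∉ Fill W}

namespace Fam

variable {𝒯 : Set (Set ℂ)} {W W' : Set ℂ}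

theorem isBdd (h : Fam 𝒯) (hW : W ∈ 𝒯) : Bornology.IsBounded W := by
  obtain ⟨x, hx⟩ := h.ne W hW
  exact isBounded_ball.subset (h.bd W hW x hx)

theorem nest (h : Fam 𝒯) (hW : W ∈ 𝒯) (hW' : W' ∈ 𝒯) {y : ℂ} (hy : y ∈ Fill W)
    (hy' : y ∈ Fill W') : Fill W ⊆ Fill W' ∨ Fill W' ⊆ Fill W := by
  by_cases hE : W = W'
  · left; rw [hE]
  · exact nested (h.isBdd hW) (h.isBdd hW') (h.opn W hW) (h.opn W' hW') (h.pre W hW)
      (h.pre W' hW') (h.dis W hW W' hW' hE) hy hy'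

theorem fill_sub_V (hW : W ∈ 𝒯) : Fill W ⊆ VV 𝒯 W := fun _ hy => ⟨W, hW, Subset.rfl, hy⟩

theorem isOpen_V (h : Fam 𝒯) (W : Set ℂ) : IsOpen (VV 𝒯 W) := by
  have h1 : VV 𝒯 W = ⋃ W' ∈ {W' | W' ∈ 𝒯 ∧ Fill W ⊆ Fill W'}, Fill W' := by
    ext y
    simp only [VV, mem_ofPred_eq, mem_iUnion, exists_prop]
    constructor
    · rintro ⟨W', h2, h3, h4⟩
      exact ⟨W', ⟨h2, h3⟩, h4⟩
    · rintro ⟨W', ⟨h2, h3⟩, h4⟩
      exact ⟨W', h2, h3, h4⟩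
  rw [h1]
  exact isOpen_biUnion fun W' hW' => isOpen_fill (h.isBdd hW'.1) (h.opn W' hW'.1)

theorem V_sub (h : Fam 𝒯) {w : ℂ} (hw : w ∈ W) : VV 𝒯 W ⊆ ball w 2 := by
  rintro y ⟨W', hW', hsub, hy⟩
  obtain ⟨x, hx⟩ := h.ne W' hW'
  have h1 := fill_subset one_pos (h.bd W' hW' x hx)
  have h2 := h1 hy
  have h3 := h1 (hsub (subset_fill W hw))
  rw [mem_ball] at h2 h3 ⊢
  have := dist_triangle_right y w x
  linarith

theorem V_pre (h : Fam 𝒯) (hW : W ∈ 𝒯) : IsPreconnected (VV 𝒯 W) := by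
  obtain ⟨w, hw⟩ := h.ne W hW
  refine isPreconnected_of_forall w fun y hy => ?_
  obtain ⟨W', hW', hsub, hy'⟩ := hy
  exact ⟨Fill W', fun z hz => ⟨W', hW', hsub, hz⟩, hsub (subset_fill W hw), hy',
    fill_pre (h.pre W' hW') (h.ne W' hW') (h.opn W' hW')⟩

theorem V_eq_aux (h : Fam 𝒯) (hW : W ∈ 𝒯) (hW' : W' ∈ 𝒯) {W1 W2 : Set ℂ}
    (h1 : Fill W ⊆ Fill W1) (hW2 : W2 ∈ 𝒯) (h2 : Fill W' ⊆ Fill W2)
    (h12 : Fill W1 ⊆ Fill W2) : VV 𝒯 W = VV 𝒯 W' := by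
  obtain ⟨w, hw⟩ := h.ne W hW
  obtain ⟨w', hw'⟩ := h.ne W' hW'
  apply Subset.antisymm
  · rintro z ⟨W3, hW3, h3, hz⟩
    rcases h.nest hW3 hW2 (h3 (subset_fill W hw)) (h12 (h1 (subset_fill W hw))) with h4 | h4
    · exact ⟨W2, hW2, h2, h4 hz⟩
    · exact ⟨W3, hW3, h2.trans h4, hz⟩
  · rintro z ⟨W3, hW3, h3, hz⟩
    rcases h.nest hW3 hW2 (h3 (subset_fill W' hw')) (h2 (subset_fill W' hw')) with h4 | h4
    · exact ⟨W2, hW2, h1.trans h12, h4 hz⟩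
    · exact ⟨W3, hW3, (h1.trans h12).trans h4, hz⟩

theorem V_eq (h : Fam 𝒯) (hW : W ∈ 𝒯) (hW' : W' ∈ 𝒯) {y : ℂ} (hy : y ∈ VV 𝒯 W)
    (hy' : y ∈ VV 𝒯 W') : VV 𝒯 W = VV 𝒯 W' := by
  obtain ⟨W1, hW1, h1, hy1⟩ := hy
  obtain ⟨W2, hW2, h2, hy2⟩ := hy'
  rcases h.nest hW1 hW2 hy1 hy2 with h3 | h3
  · exact h.V_eq_aux hW hW' h1 hW2 h2 h3
  · exact (h.V_eq_aux hW' hW h2 hW1 h1 h3).symm

theorem compl_aux (h : Fam 𝒯) {w : ℂ} (hw : w ∈ W) {A1 A2 : Set ℂ}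
    (h1 : IsClosed A1) (h2 : IsClosed A2) (hd : Disjoint A1 A2) (hu : A1 ∪ A2 = (VV 𝒯 W)ᶜ)
    (hfar : {y : ℂ | 2 ≤ dist y w} ⊆ A1) (hne : A2.Nonempty) (hWT : W ∈ 𝒯) : False := by
  have hA2b : A2 ⊆ ball w 2 := by
    intro y hy
    rw [mem_ball]
    by_contra hcon
    push Not at hcon
    exact Set.disjoint_left.1 hd (hfar hcon) hy
  have hA2c : IsCompact A2 := Metric.isCompact_of_isClosed_isBounded h2 (isBounded_ball.subset hA2b)
  obtain ⟨δ, hδ, hδd⟩ := hd.symm.exists_thickenings hA2c h1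
  -- the level set
  let Γ : Set ℂ := {y | infDist y A2 = δ / 2}
  have hΓc : IsClosed Γ := isClosed_eq (continuous_infDist_pt A2) continuous_const
  have hcont := continuous_infDist_pt A2
  have hΓb : Γ ⊆ ball w (2 + δ) := by
    intro y hy
    obtain ⟨a, ha, hya⟩ := (infDist_lt_iff (r := δ) hne).1 (by
      have : infDist y A2 = δ / 2 := hy
      linarith)
    have h3 := hA2b ha
    rw [mem_ball] at h3 ⊢
    have := dist_triangle y a w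
    linarith
  have hΓk : IsCompact Γ := Metric.isCompact_of_isClosed_isBounded hΓc (isBounded_ball.subset hΓb)
  have hΓV : Γ ⊆ VV 𝒯 W := by
    intro y hy
    have hy' : infDist y A2 = δ / 2 := hy
    by_contra hcon
    have h3 : y ∈ A1 ∪ A2 := by rw [hu]; exact hcon
    rcases h3 with h3 | h3
    · have h4 : y ∈ thickening δ A2 := by
        rw [mem_thickening_iff]
        obtain ⟨a, ha, hya⟩ := (infDist_lt_iff (r := δ) hne).1 (by linarith)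
        exact ⟨a, ha, hya⟩
      exact Set.disjoint_left.1 hδd h4 (self_subset_thickening hδ _ h3)
    · rw [infDist_zero_of_mem h3] at hy'
      linarith
  -- one filled tile
  obtain ⟨W', hW', hsub, hΓW'⟩ : ∃ W' ∈ 𝒯, Fill W ⊆ Fill W' ∧ Γ ⊆ Fill W' := by
    have hne' : Nonempty {W' // W' ∈ 𝒯 ∧ Fill W ⊆ Fill W'} := ⟨⟨W, hWT, Subset.rfl⟩⟩
    obtain ⟨i, hi⟩ := hΓk.elim_directed_cover
      (fun i : {W' // W' ∈ 𝒯 ∧ Fill W ⊆ Fill W'} => Fill i.1)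
      (fun i => isOpen_fill (h.isBdd i.2.1) (h.opn _ i.2.1))
      (fun y hy => by
        obtain ⟨W', h3, h4, h5⟩ := hΓV hy
        exact mem_iUnion.2 ⟨⟨W', h3, h4⟩, h5⟩)
      (fun i j => by
        rcases h.nest i.2.1 j.2.1 (i.2.2 (subset_fill W hw)) (j.2.2 (subset_fill W hw)) with h3 | h3
        · exact ⟨j, h3, Subset.rfl⟩
        · exact ⟨i, Subset.rfl, h3⟩)
    exact ⟨i.1, i.2.1, i.2.2, hi⟩
  -- the exterior is connected and crosses the level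
  have hE := ext_pre (h.isBdd hW')
  have hsubE : (VV 𝒯 W)ᶜ ⊆ (Fill W')ᶜ := by
    intro y hy hyF
    exact hy ⟨W', hW', hsub, hyF⟩
  obtain ⟨a, ha⟩ := hne
  have haE : a ∈ (Fill W')ᶜ := hsubE (by rw [← hu]; exact Or.inr ha)
  let b : ℂ := w + ((2 + δ : ℝ) : ℂ)
  have hbw : dist b w = 2 + δ := by
    rw [dist_eq_norm, add_sub_cancel_left, Complex.norm_real, Real.norm_eq_abs,
      abs_of_pos (by linarith)]
  have hbA : b ∈ A1 := hfar (by show 2 ≤ dist b w; rw [hbw]; linarith)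
  have hbE : b ∈ (Fill W')ᶜ := hsubE (by rw [← hu]; exact Or.inl hbA)
  have hb1 : δ / 2 ≤ infDist b A2 := by
    by_contra hcon
    push Not at hcon
    obtain ⟨a', ha', hya⟩ := (infDist_lt_iff ⟨a, ha⟩).1 hcon
    have h4 : b ∈ thickening δ A2 := by
      rw [mem_thickening_iff]
      exact ⟨a', ha', by linarith⟩
    exact Set.disjoint_left.1 hδd h4 (self_subset_thickening hδ _ hbA)
  have ha1 : infDist a A2 = 0 := infDist_zero_of_mem ha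
  obtain ⟨y, hyE, hy⟩ := hE.intermediate_value haE hbE hcont.continuousOn
    (show δ / 2 ∈ Icc (infDist a A2) (infDist b A2) by
      rw [ha1]; exact ⟨by linarith, hb1⟩)
  exact hyE (hΓW' hy)

theorem compl_pre (h : Fam 𝒯) (hWT : W ∈ 𝒯) : IsPreconnected (VV 𝒯 W)ᶜ := by
  obtain ⟨w, hw⟩ := h.ne W hWT
  have hcl : IsClosed (VV 𝒯 W)ᶜ := (h.isOpen_V W).isClosed_compl
  have hfar : {y : ℂ | 2 ≤ dist y w} ⊆ (VV 𝒯 W)ᶜ := by
    intro y hy hyV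
    have h1 := h.V_sub hw hyV
    rw [mem_ball] at h1
    have h2 : 2 ≤ dist y w := hy
    linarith
  rw [isPreconnected_closed_iff]
  intro t t' ht ht' hsub hne hne'
  by_contra hcon
  rw [not_nonempty_iff_eq_empty] at hcon
  have hd : Disjoint ((VV 𝒯 W)ᶜ ∩ t) ((VV 𝒯 W)ᶜ ∩ t') := by
    rw [Set.disjoint_left]
    rintro y ⟨h1, h2⟩ ⟨-, h3⟩
    have : y ∈ (VV 𝒯 W)ᶜ ∩ (t ∩ t') := ⟨h1, h2, h3⟩
    rw [hcon] at this
    exact this
  have hu : ((VV 𝒯 W)ᶜ ∩ t) ∪ ((VV 𝒯 W)ᶜ ∩ t') = (VV 𝒯 W)ᶜ := by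
    rw [← inter_union_distrib_left]
    exact inter_eq_left.2 hsub
  have hF := far_pre w two_pos
  -- the far set is on one side
  have hside : {y : ℂ | 2 ≤ dist y w} ⊆ (VV 𝒯 W)ᶜ ∩ t ∨
      {y : ℂ | 2 ≤ dist y w} ⊆ (VV 𝒯 W)ᶜ ∩ t' := by
    by_contra hcon2
    push Not at hcon2
    obtain ⟨h1, h2⟩ := hcon2
    obtain ⟨a, ha, ha'⟩ := not_subset.1 h1
    obtain ⟨b, hb, hb'⟩ := not_subset.1 h2
    have ha2 : a ∈ (VV 𝒯 W)ᶜ ∩ t' := by
      have : a ∈ ((VV 𝒯 W)ᶜ ∩ t) ∪ ((VV 𝒯 W)ᶜ ∩ t') := by rw [hu]; exact hfar ha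
      exact this.resolve_left ha'
    have hb2 : b ∈ (VV 𝒯 W)ᶜ ∩ t := by
      have : b ∈ ((VV 𝒯 W)ᶜ ∩ t) ∪ ((VV 𝒯 W)ᶜ ∩ t') := by rw [hu]; exact hfar hb
      exact this.resolve_right hb'
    obtain ⟨y, hy, hy1, hy2⟩ := isPreconnected_closed_iff.1 hF _ _ (hcl.inter ht) (hcl.inter ht')
      (by rw [hu]; exact hfar) ⟨b, hb, hb2⟩ ⟨a, ha, ha2⟩
    exact Set.disjoint_left.1 hd hy1 hy2
  rcases hside with h1 | h1
  · exact h.compl_aux hw (hcl.inter ht) (hcl.inter ht') hd hu h1 hne' hWT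
  · exact h.compl_aux hw (hcl.inter ht') (hcl.inter ht) hd.symm (by rw [union_comm]; exact hu)
      h1 hne hWT

theorem frontier_V (h : Fam 𝒯) (hWT : W ∈ 𝒯) : frontier (VV 𝒯 W) ⊆ ZZ 𝒯 := by
  obtain ⟨w, hw⟩ := h.ne W hWT
  intro y hy W1 hW1 hyF
  have hy1 : y ∉ VV 𝒯 W := by
    have h1 := (h.isOpen_V W).inter_frontier_eq
    intro hcon
    have : y ∈ VV 𝒯 W ∩ frontier (VV 𝒯 W) := ⟨hcon, hy⟩
    rw [h1] at this
    exact this
  have hcl : y ∈ closure (VV 𝒯 W) := frontier_subset_closure hy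
  obtain ⟨z, hzF, hzV⟩ := mem_closure_iff.1 hcl (Fill W1)
    (isOpen_fill (h.isBdd hW1) (h.opn W1 hW1)) hyF
  obtain ⟨W2, hW2, hsub, hz2⟩ := hzV
  rcases h.nest hW1 hW2 hzF hz2 with h1 | h1
  · exact hy1 ⟨W2, hW2, hsub, h1 hyF⟩
  · exact hy1 ⟨W1, hW1, hsub.trans h1, hyF⟩

theorem frontier_ne (h : Fam 𝒯) (hWT : W ∈ 𝒯) : (frontier (VV 𝒯 W)).Nonempty := by
  obtain ⟨w, hw⟩ := h.ne W hWT
  rw [Set.nonempty_iff_ne_empty]
  intro hcon
  rw [frontier_eq_empty_iff] at hcon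
  rcases hcon with h1 | h1
  · have : w ∈ VV 𝒯 W := fill_sub_V hWT (subset_fill W hw)
    rw [h1] at this
    exact this
  · have h2 : w + 2 ∈ VV 𝒯 W := by rw [h1]; trivial
    have h3 := h.V_sub hw h2
    rw [mem_ball, dist_eq_norm, add_sub_cancel_left] at h3
    norm_num at h3

theorem side (h : Fam 𝒯) (hWT : W ∈ 𝒯) {P Q : Set ℂ} (hP : IsClosed P) (hQ : IsClosed Q)
    (hPQ : Disjoint P Q) (hZ : ZZ 𝒯 ⊆ P ∪ Q) :
    frontier (VV 𝒯 W) ⊆ P ∨ frontier (VV 𝒯 W) ⊆ Q := by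
  obtain ⟨f, hf0, hf1, -⟩ := exists_continuous_zero_one_of_isClosed hP hQ hPQ
  have hfr : closure (VV 𝒯 W) ∩ (VV 𝒯 W)ᶜ = frontier (VV 𝒯 W) := by
    rw [(h.isOpen_V W).frontier_eq]
    rfl
  by_contra hcon
  push Not at hcon
  obtain ⟨h1, h2⟩ := hcon
  obtain ⟨q, hq, hqP⟩ := not_subset.1 h1
  obtain ⟨p, hp, hpQ⟩ := not_subset.1 h2
  have hq' : q ∈ Q := (hZ (h.frontier_V hWT hq)).resolve_left hqP
  have hp' : p ∈ P := (hZ (h.frontier_V hWT hp)).resolve_right hpQ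
  refine not_both (A := closure (VV 𝒯 W)) (B := (VV 𝒯 W)ᶜ) isClosed_closure
    (h.isOpen_V W).isClosed_compl ?_ (h.V_pre hWT).closure (h.compl_pre hWT) (φ := f)
    f.continuous ?_ (p := p) (q := q) (by rw [hfr]; exact hp) (by rw [hfr]; exact hq)
    (hf0 hp') (hf1 hq')
  · ext y
    simp only [mem_union, mem_compl_iff, mem_univ, iff_true]
    by_cases hy : y ∈ VV 𝒯 W
    · exact Or.inl (subset_closure hy)
    · exact Or.inr hy
  · intro x hx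
    rw [hfr] at hx
    rcases hZ (h.frontier_V hWT hx) with h3 | h3
    · exact Or.inl (hf0 h3)
    · exact Or.inr (hf1 h3)

theorem closed_side (h : Fam 𝒯) {P Q : Set ℂ} (hP : IsClosed P) (hPQ : Disjoint P Q)
    (hZ : P ∪ Q = ZZ 𝒯) :
    IsClosed (P ∪ {y | ∃ W ∈ 𝒯, frontier (VV 𝒯 W) ⊆ P ∧ y ∈ VV 𝒯 W}) := by
  refine isClosed_of_closure_subset fun x hx => ?_
  by_cases hxP : x ∈ P
  · exact Or.inl hxP
  by_cases hxQ : x ∈ Q
  · exfalso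
    obtain ⟨r, hr, hball⟩ := Metric.isOpen_iff.1 hP.isOpen_compl x hxP
    obtain ⟨y, hyb, hy⟩ := mem_closure_iff.1 hx (ball x r) isOpen_ball (mem_ball_self hr)
    rcases hy with hy | ⟨W, hW, hfr, hy⟩
    · exact hball hyb hy
    · have hxV : x ∉ VV 𝒯 W := by
        rintro ⟨W', hW', -, hxF⟩
        have : x ∈ ZZ 𝒯 := by rw [← hZ]; exact Or.inr hxQ
        exact this W' hW' hxF
      obtain ⟨z, hz, hz1, hz2⟩ := isPreconnected_closed_iff.1 (convex_ball x r).isPreconnected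
        (closure (VV 𝒯 W)) (VV 𝒯 W)ᶜ isClosed_closure (h.isOpen_V W).isClosed_compl
        (fun z _ => by
          by_cases hz : z ∈ VV 𝒯 W
          · exact Or.inl (subset_closure hz)
          · exact Or.inr hz)
        ⟨y, hyb, subset_closure hy⟩ ⟨x, mem_ball_self hr, hxV⟩
      exact hball hz (hfr (by rw [(h.isOpen_V W).frontier_eq]; exact ⟨hz1, hz2⟩))
  · have hxZ : x ∉ ZZ 𝒯 := by
      rw [← hZ]
      rintro (h1 | h1)
      · exact hxP h1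
      · exact hxQ h1
    have hx' : ∃ W0 ∈ 𝒯, x ∈ Fill W0 := by
      by_contra hcon
      push Not at hcon
      exact hxZ hcon
    obtain ⟨W0, hW0, hxF⟩ := hx'
    obtain ⟨y, hyV, hy⟩ := mem_closure_iff.1 hx (VV 𝒯 W0) (h.isOpen_V W0) (fill_sub_V hW0 hxF)
    rcases hy with hy | ⟨W, hW, hfr, hy⟩
    · exfalso
      obtain ⟨W', hW', -, hyF⟩ := hyV
      have : y ∈ ZZ 𝒯 := by rw [← hZ]; exact Or.inl hy
      exact this W' hW' hyF
    · right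
      refine ⟨W, hW, hfr, ?_⟩
      rw [h.V_eq hW hW0 hy hyV]
      exact fill_sub_V hW0 hxF

/-- **the complement of the filled tiles is connected** -/
theorem closing (h : Fam 𝒯) {P Q : Set ℂ} (hP : IsClosed P) (hQ : IsClosed Q)
    (hPQ : Disjoint P Q) (hZ : P ∪ Q = ZZ 𝒯) : P = ∅ ∨ Q = ∅ := by
  have h1 := h.closed_side hP hPQ hZ
  have h2 := h.closed_side hQ hPQ.symm (by rw [union_comm]; exact hZ)
  set P' := P ∪ {y | ∃ W ∈ 𝒯, frontier (VV 𝒯 W) ⊆ P ∧ y ∈ VV 𝒯 W} with hP'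
  set Q' := Q ∪ {y | ∃ W ∈ 𝒯, frontier (VV 𝒯 W) ⊆ Q ∧ y ∈ VV 𝒯 W} with hQ'
  have hcov : univ ⊆ P' ∪ Q' := by
    intro x _
    by_cases hx : x ∈ ZZ 𝒯
    · rw [← hZ] at hx
      rcases hx with hx | hx
      · exact Or.inl (Or.inl hx)
      · exact Or.inr (Or.inl hx)
    · have hx' : ∃ W0 ∈ 𝒯, x ∈ Fill W0 := by
        by_contra hcon
        push Not at hcon
        exact hx hcon
      obtain ⟨W0, hW0, hxF⟩ := hx'
      rcases h.side hW0 hP hQ hPQ hZ.symm.subset with h3 | h3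
      · exact Or.inl (Or.inr ⟨W0, hW0, h3, fill_sub_V hW0 hxF⟩)
      · exact Or.inr (Or.inr ⟨W0, hW0, h3, fill_sub_V hW0 hxF⟩)
  have hdis : ∀ x, x ∈ P' → x ∈ Q' → False := by
    have key : ∀ x ∈ ZZ 𝒯, ∀ W : Set ℂ, x ∉ VV 𝒯 W := by
      rintro x hx W ⟨W', hW', -, hxF⟩
      exact hx W' hW' hxF
    rintro x (hx | ⟨W, hW, hf, hx⟩) (hx' | ⟨W', hW', hf', hx'⟩)
    · exact Set.disjoint_left.1 hPQ hx hx'
    · exact key x (by rw [← hZ]; exact Or.inl hx) W' hx'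
    · exact key x (by rw [← hZ]; exact Or.inr hx') W hx
    · have h3 := h.V_eq hW hW' hx hx'
      obtain ⟨y, hy⟩ := h.frontier_ne hW
      exact Set.disjoint_left.1 hPQ (hf hy) (hf' (by rw [← h3]; exact hy))
  by_contra hcon
  push Not at hcon
  obtain ⟨hPne, hQne⟩ := hcon
  obtain ⟨p, hp⟩ := hPne
  obtain ⟨q, hq⟩ := hQne
  obtain ⟨x, -, hx, hx'⟩ := isPreconnected_closed_iff.1 (isPreconnected_univ (α := ℂ)) P' Q' h1 h2
    hcov ⟨p, trivial, Or.inl hp⟩ ⟨q, trivial, Or.inl hq⟩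
  exact hdis x hx hx'

end Fam

end Vale.Agent.P032.H926
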