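import Vale.Agent.P032.H926.Close
import Vale.Agent.P032.H187.Product
import Vale.Agent.P032.H403.DClosed
import Vale.Agent.P032.H715.Collar
import Vale.Agent.P032.S5.H843.Core7
import Vale.Agent.P032.S5.H394.Arc

/-!
# P032: the edges of two-pair points in the cells of their complementary partners

`Cell T w P Q`: the points `p + q - w`, `p` in the closure of the exact `P`-arcs of `S(w)`, `q` in
the closure of the exact `Q`-arcs.
`OO T w a b c d`: the points of `Cell T w {a, b} {c, d}` which have all colours outside `T w`.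
-/

open Set Filter Topology Metric

noncomputable section

namespace Vale.Agent.P032.H926

open Vale.Agent.P032.Six Vale.Agent.P032.S5.H767 Vale.Agent.P032.H187

variable {U : Fin 6 → Set ℂ} {T : ℂ → Set (Fin 6)}

/-! ### Coordinates -/

/-- two directions as coordinates -/
theorem coord {w p q u : ℂ} (hp : dist p w = 1) (hq : dist q w = 1) (hu : u = p + q - w)
    (hpq : p ≠ q) (hpq2 : p + q ≠ 2 * w) {N : Set ℂ} (hN : N ∈ 𝓝 p) {M : Set ℂ}
    (hM : M ∈ 𝓝 q) : ∀ᶠ y in 𝓝 u, ∃ p' ∈ N, ∃ q' ∈ M, dist p' w = 1 ∧ dist q' w = 1 ∧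
      y = p' + q' - w := by
  obtain ⟨t0, ht0⟩ := exists_cis (u := p - w) (by rw [← dist_eq_norm]; exact hp)
  have hpt : w + cis t0 = p := by rw [← ht0]; ring
  have hpu : dist p u = 1 := by
    have h1 := hq
    rw [dist_eq_norm] at h1 ⊢
    rw [hu, ← h1, ← norm_neg]; congr 1; ring
  have hwu : w ≠ u := by
    rintro h
    exact hpq2 (by rw [hu] at h; linear_combination -h)
  have hwu2 : w + u ≠ 2 * p := by
    intro h
    exact hpq (by rw [hu] at h; linear_combination -h)
  have hcr : cr (cis t0) (w + cis t0 - u) ≠ 0 := by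
    have h1 := cr_ne hp hpu hwu hwu2
    rwa [hpt, ← ht0]
  -- a product neighbourhood
  have hcont : Continuous fun x : ℂ × ℂ => x.1 + w - x.2 := by fun_prop
  have h2 : (fun x : ℂ × ℂ => x.1 + w - x.2) (u, p) = q := by
    show u + w - p = q
    rw [hu]; ring
  have h3 : {x : ℂ × ℂ | x.1 + w - x.2 ∈ M} ∈ 𝓝 (u, p) :=
    hcont.continuousAt.preimage_mem_nhds (by
      have h4 : (u, p).1 + w - (u, p).2 = q := h2
      rw [h4]; exact hM)
  rw [nhds_prod_eq, Filter.mem_prod_iff] at h3
  obtain ⟨A, hA, B, hB, hAB⟩ := h3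
  have hNB : N ∩ B ∈ 𝓝 p := inter_mem hN hB
  have hc2 : ContinuousAt (fun t => w + cis t) t0 :=
    (continuous_const.add continuous_cis).continuousAt
  obtain ⟨η, hη, hball⟩ := Metric.mem_nhds_iff.1 (hc2.preimage_mem_nhds (by rw [hpt]; exact hNB))
  filter_upwards [crossing (c := w) (q₀ := u) (t0 := t0) (by rw [hpt]; exact hpu) hcr hη, hA]
    with y hy hyA
  obtain ⟨t, ht, hty⟩ := hy
  have h4 : w + cis t ∈ N ∩ B := hball (by rw [mem_ball, Real.dist_eq]; exact ht)
  refine ⟨w + cis t, h4.1, y + w - (w + cis t), hAB (Set.mk_mem_prod hyA h4.2),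
    dist_add_cis w t, ?_, by ring⟩
  rw [dist_eq_norm] at hty ⊢
  rw [← hty, ← norm_neg]; congr 1; ring

/-! ### Isolation -/

/-- near a two-pair point no other point has both colours of a pair -/
theorem pair_sep (h : Irr U T) {z : ℂ} {a b c d : Fin 6} (hz : DPt T z a b c d) :
    ∀ᶠ z' in 𝓝 z, a ∈ T z' → b ∈ T z' → z' = z := by
  obtain ⟨p, hp⟩ := hz.arc1
  have key : ∀ i o : Fin 6, ({i, o} : Set (Fin 6)) ⊆ {a, b} →
      (∀ᶠ x in 𝓝 p, (dist x z < 1 → T x = {i}) ∧ (1 < dist x z → T x = {o})) →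
      ∀ᶠ z' in 𝓝 z, a ∈ T z' → b ∈ T z' → z' = z := by
    intro i o hio hcol
    have h1 : Tendsto (fun x => p + (x - z)) (𝓝 z) (𝓝 p) := by
      have : Continuous fun x : ℂ => p + (x - z) := by fun_prop
      have h2 := this.tendsto z
      simpa using h2
    filter_upwards [h1.eventually (eventually_eventually_nhds.2 hcol), ball_mem_nhds z one_pos]
      with z' hz' hb ha' hb'
    have hmem : ∀ m ∈ ({i, o} : Set (Fin 6)), m ∈ T z' := by
      intro m hm
      rcases hio hm with rfl | h4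
      · exact ha'
      · rw [mem_singleton_iff] at h4
        rw [h4]; exact hb'
    have hd : dist (p + (z' - z)) z' = 1 := by
      have := hp.1
      rw [dist_eq_norm] at this ⊢
      rw [← this]; congr 1; ring
    have hJ : ∀ᶠ q in 𝓝[sphere z' 1] (p + (z' - z)), dist q z = 1 := by
      filter_upwards [mem_nhdsWithin_of_mem_nhds hz', self_mem_nhdsWithin] with q hq hq1
      rcases lt_trichotomy (dist q z) 1 with h2 | h2 | h2
      · exfalso
        exact h.mx.notMem' (h.mem_of_single (hq.1 h2).subset) hq1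
          (h.sub z' (hmem i (by simp)))
      · exact h2
      · exfalso
        exact h.mx.notMem' (h.mem_of_single (hq.2 h2).subset) hq1
          (h.sub z' (hmem o (by simp)))
    rcases arc_on_circle hd hJ with h2 | h2
    · exact h2
    · exfalso
      have h3 : z' - z = -2 * (p - z) := by linear_combination -h2
      rw [mem_ball, dist_eq_norm, h3, norm_mul, ← dist_eq_norm, hp.1] at hb
      norm_num at hb
  rcases H715.collar_DPt h hz hp with h1 | h1
  · exact key a b Subset.rfl h1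
  · exact key b a (by rw [pair_comm]) h1

/-! ### Points of the circle near the closure of the exact arcs -/

/-- a constant palette inside `T w` is one of the two pairs -/
theorem pal_const (h : Irr U T) (hmin : Mn U T) {w : ℂ} {a b c d : Fin 6} (hw : DPt T w a b c d)
    {g : ℂ} (hg : dist g w = 1) (hc : ∀ᶠ q in 𝓝[sphere w 1] g, T q = T g) (hs : T g ⊆ T w) :
    T g = {a, b} ∨ T g = {c, d} := by
  have h4 : (T w).ncard = 4 := by
    rw [hw.pal, Set.ncard_insert_of_notMem, Set.ncard_insert_of_notMem, Set.ncard_pair hw.cd]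
    · simp only [mem_insert_iff, mem_singleton_iff, not_or]
      exact ⟨hw.bc, hw.bd⟩
    · simp only [mem_insert_iff, mem_singleton_iff, not_or]
      exact ⟨hw.ab, hw.ac, hw.ad⟩
  have hX : w ∈ XX U := by
    obtain ⟨i, hi⟩ := h.ne g
    exact h.mem_XX (by rw [dist_comm]; exact hg) (hs hi) (h.sub g hi)
  have hgap := h.gap_two hX hg (P := T g) (hc.mono fun q hq => by rw [← hq]; exact h.sub q)
  have hd := Set.ncard_sdiff hs (Set.toFinite _)
  have h2 : 2 ≤ (T g).ncard := by
    by_contra hcon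
    obtain ⟨i, hi⟩ := h.ne g
    have h2 : T g ⊆ {i} := fun m hm =>
      (Set.ncard_le_one (Set.toFinite _)).1 (by omega) m hm i hi
    exact h.mx.notMem' (h.mem_of_single h2) hg (h.sub w (hs hi))
  have hg2 : (T g).ncard = 2 := by
    have := Set.ncard_le_ncard hs (Set.toFinite _)
    omega
  obtain ⟨p, hp⟩ := hw.arc1
  have hpT : T p = {a, b} := hp.mem
  rcases h.pairs_disjoint hmin h4 hg hp.1 hs (by
    rw [hpT, hw.pal]; intro i; simp only [mem_insert_iff, mem_singleton_iff]; tauto) hg2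
    (by rw [hpT]; exact Set.ncard_pair hw.ab) with h5 | h5
  · left; rw [h5, hpT]
  · right
    rw [hpT, Set.disjoint_left] at h5
    refine Set.eq_of_subset_of_ncard_le (fun i hi => ?_) (by
      rw [hg2, Set.ncard_pair hw.cd]) (Set.toFinite _)
    have h6 := hs hi
    rw [hw.pal] at h6
    have h7 := h5 hi
    simp only [mem_insert_iff, mem_singleton_iff, not_or] at h6 h7 ⊢
    tauto

theorem DPt_card {w : ℂ} {a b c d : Fin 6} (hw : DPt T w a b c d) : (T w).ncard = 4 := by
  rw [hw.pal, Set.ncard_insert_of_notMem, Set.ncard_insert_of_notMem, Set.ncard_pair hw.cd]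
  · simp only [mem_insert_iff, mem_singleton_iff, not_or]
    exact ⟨hw.bc, hw.bd⟩
  · simp only [mem_insert_iff, mem_singleton_iff, not_or]
    exact ⟨hw.ab, hw.ac, hw.ad⟩

theorem ab_sub {w : ℂ} {a b c d : Fin 6} (hw : DPt T w a b c d) :
    ({a, b} : Set (Fin 6)) ⊆ T w := by
  rw [hw.pal]; intro i; simp only [mem_insert_iff, mem_singleton_iff]; tauto

/-- near a point of the closure of the `ab`-arcs: points of this closure, or a free colour on an
arc -/
theorem near_cl (h : Irr U T) (hmin : Mn U T) {w : ℂ} {a b c d : Fin 6} (hw : DPt T w a b c d)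
    {p : ℂ} (hp : p ∈ closure (Ex T w {a, b})) (h3 : (T p).ncard ≤ 3) :
    ∀ᶠ p' in 𝓝 p, dist p' w = 1 → p' ∈ closure (Ex T w {a, b}) ∨
      ∃ l, l ∉ T w ∧ l ∈ T p ∧ ∀ᶠ g in 𝓝[sphere w 1] p', l ∈ T g := by
  have hab : ({a, b} : Set (Fin 6)) ⊆ T p := sub_of_closure h hp
  have hT : ∃ l, T p ⊆ {a, b, l} := by
    by_cases h2 : T p ⊆ {a, b}
    · exact ⟨a, h2.trans (by intro i; simp only [mem_insert_iff, mem_singleton_iff]; tauto)⟩
    · obtain ⟨l, hl, hl2⟩ := not_subset.1 h2
      refine ⟨l, (Set.eq_of_subset_of_ncard_le (s := {a, b, l}) ?_ ?_ (Set.toFinite _)).symm.subset⟩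
      · intro i hi
        rcases hi with rfl | rfl | rfl
        · exact hab (by simp)
        · exact hab (by simp)
        · exact hl
      · refine h3.trans (le_of_eq ?_)
        rw [Set.ncard_eq_three.2]
        simp only [mem_insert_iff, mem_singleton_iff, not_or] at hl2
        exact ⟨a, b, l, hw.ab, fun h4 => hl2.1 h4.symm, fun h4 => hl2.2 h4.symm, rfl⟩
  obtain ⟨l, hl⟩ := hT
  filter_upwards [eventually_eventually_nhds.2 (h.nhd p)] with p' hp' hd
  by_cases hcl : p' ∈ closure (Ex T w {a, b})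
  · exact Or.inl hcl
  right
  have hnear : ∀ᶠ g in 𝓝[sphere w 1] p', T g ⊆ {a, b, l} ∧ g ∉ closure (Ex T w {a, b}) ∧
      dist g w = 1 := by
    filter_upwards [mem_nhdsWithin_of_mem_nhds hp', mem_nhdsWithin_of_mem_nhds
      (isClosed_closure.isOpen_compl.mem_nhds hcl), self_mem_nhdsWithin] with g h1 h2 h3
    exact ⟨h1.trans hl, h2, h3⟩
  have hne : ∀ g, T g ⊆ {a, b, l} → g ∉ closure (Ex T w {a, b}) → dist g w = 1 → l ∈ T g := by
    intro g h1 h2 h3
    by_contra hcon
    have h4 : T g ⊆ {a, b} := by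
      intro i hi
      have h5 := h1 hi
      simp only [mem_insert_iff, mem_singleton_iff] at h5 ⊢
      rcases h5 with h5 | h5 | h5
      · exact Or.inl h5
      · exact Or.inr h5
      · subst h5; exact absurd hi hcon
    exact h2 (subset_closure ⟨h3, h.pair_open (Set.ncard_pair hw.ab) (ab_sub hw) h4⟩)
  by_cases hlw : l ∈ T w
  · exfalso
    obtain ⟨V, hV, hVs⟩ := mem_nhdsWithin_iff_exists_mem_nhds_inter.1 hnear
    obtain ⟨g, ⟨hgV, hgS⟩, hgc⟩ := h.const (S := sphere w 1) (y := p') hd hV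
    obtain ⟨h1, h2, h3⟩ := hVs ⟨hgV, hgS⟩
    have h4 : T g ⊆ T w := by
      refine h1.trans ?_
      rintro i (rfl | rfl | rfl)
      · exact ab_sub hw (by simp)
      · exact ab_sub hw (by simp)
      · exact hlw
    rcases pal_const h hmin hw h3 hgc h4 with h5 | h5
    · exact h2 (subset_closure ⟨h3, hgc.mono fun q hq => by rw [hq, h5]⟩)
    · have hc : c ∈ T g := by rw [h5]; simp
      have hd' : d ∈ T g := by rw [h5]; simp
      have h6 := h1 hc
      have h7 := h1 hd'
      simp only [mem_insert_iff, mem_singleton_iff] at h6 h7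
      have h8 : c = l := by
        rcases h6 with h6 | h6 | h6
        · exact absurd h6.symm hw.ac
        · exact absurd h6.symm hw.bc
        · exact h6
      have h9 : d = l := by
        rcases h7 with h7 | h7 | h7
        · exact absurd h7.symm hw.ad
        · exact absurd h7.symm hw.bd
        · exact h7
      exact hw.cd (h8.trans h9.symm)
  · refine ⟨l, hlw, ?_, hnear.mono fun g hg => hne g hg.1 hg.2.1 hg.2.2⟩
    by_contra hcon
    have h1 : T p' ⊆ {a, b, l} := (hp'.self_of_nhds).trans hl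
    have h2 := hne p' h1 hcl hd
    exact hcon (hp'.self_of_nhds h2)

/-! ### Points with the two free colours -/

/-- the germ of the cell rule -/
theorem cell_rule (h : Irr U T) {w p q u : ℂ} (hq : dist q w = 1) (hu : u = p + q - w)
    (hpq : p ≠ q) (hpq2 : p + q ≠ 2 * w) {i : Fin 6} (hiu : i ∈ T u) (hp : dist p w = 1)
    (hJ : ∀ᶠ g in 𝓝[sphere w 1] p, i ∈ T g) : False := by
  have hc : p ∈ Cr U w {i} := Cr_of_T h hp (hJ.mono fun g hg => singleton_subset_iff.2 hg)
  have hpu : dist p u = 1 := by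
    have h1 := hq
    rw [dist_eq_norm] at h1 ⊢
    rw [hu, ← h1, ← norm_neg]; congr 1; ring
  refine Cr_line h.mx hc (mem_singleton i) hpu ?_ ?_ (h.sub u hiu)
  · intro h1
    exact hpq2 (by rw [hu] at h1; linear_combination h1)
  · intro h1
    exact hpq (by rw [hu] at h1; linear_combination -h1)

/-- **near a point with the two free colours**, the points with the two free colours are in the
cells -/
theorem near (h : Irr U T) (hmin : Mn U T) {w : ℂ} {a b c d : Fin 6} (hw : DPt T w a b c d)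
    {p q u : ℂ} (hp : p ∈ closure (Ex T w {a, b})) (hq : q ∈ closure (Ex T w {c, d}))
    (hp3 : (T p).ncard ≤ 3) (hq3 : (T q).ncard ≤ 3) (hu : u = p + q - w)
    (hpq2 : p + q ≠ 2 * w) :
    ∀ᶠ y in 𝓝 u, (∀ i, i ∉ T w → i ∈ T y) → ∃ p' ∈ closure (Ex T w {a, b}),
      ∃ q' ∈ closure (Ex T w {c, d}), y = p' + q' - w := by
  have hpd := dist_of_closure hp
  have hqd := dist_of_closure hq
  have hpq : p ≠ q := by
    rintro rfl
    have h1 : T w ⊆ T p := by
      have h2 := sub_of_closure h hp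
      have h3 := sub_of_closure h hq
      rw [hw.pal]
      rintro i (rfl | rfl | rfl | rfl)
      exacts [h2 (by simp), h2 (by simp), h3 (by simp), h3 (by simp)]
    have h4 := Set.ncard_le_ncard h1 (Set.toFinite _)
    rw [DPt_card hw] at h4
    omega
  have hr : 0 < dist p q / 2 := by
    have := dist_pos.2 hpq
    linarith
  have h1 := near_cl h hmin hw hp hp3
  have h2 := near_cl h hmin hw.swap hq hq3
  have hwu : u ≠ w := by
    intro h3
    exact hpq2 (by rw [hu] at h3; linear_combination h3)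
  filter_upwards [coord hpd hqd hu hpq hpq2 (inter_mem h1 (ball_mem_nhds p hr))
    (inter_mem h2 (ball_mem_nhds q hr)), isOpen_ne.mem_nhds hwu] with y hy hyw hcol
  obtain ⟨p', ⟨hp1, hp2⟩, q', ⟨hq1, hq2⟩, hp'd, hq'd, hyeq⟩ := hy
  have hp1 : dist p' w = 1 → p' ∈ closure (Ex T w {a, b}) ∨
      ∃ l, l ∉ T w ∧ l ∈ T p ∧ ∀ᶠ g in 𝓝[sphere w 1] p', l ∈ T g := hp1
  have hq1 : dist q' w = 1 → q' ∈ closure (Ex T w {c, d}) ∨
      ∃ l, l ∉ T w ∧ l ∈ T q ∧ ∀ᶠ g in 𝓝[sphere w 1] q', l ∈ T g := hq1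
  have hpq' : p' ≠ q' := by
    rintro rfl
    rw [mem_ball] at hp2 hq2
    have := dist_triangle_left p q p'
    linarith
  have hyw : y ≠ w := hyw
  have hpq2' : p' + q' ≠ 2 * w := by
    intro h3
    exact hyw (by rw [hyeq]; linear_combination h3)
  refine ⟨p', ?_, q', ?_, hyeq⟩
  · rcases hp1 hp'd with h3 | ⟨l, hl, -, hJ⟩
    · exact h3
    · exact (cell_rule h hq'd hyeq hpq' hpq2' (hcol l hl) hp'd hJ).elim
  · rcases hq1 hq'd with h3 | ⟨l, hl, -, hJ⟩
    · exact h3
    · exact (cell_rule h hp'd (by rw [hyeq]; ring) hpq'.symm (by rw [add_comm]; exact hpq2')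
        (hcol l hl) hq'd hJ).elim

/-- the end of the arcs: a colour of the pair at `u` forces three colours at `p` -/
theorem end_three (h : Irr U T) (hmin : Mn U T) {w : ℂ} {a b c d : Fin 6} (hw : DPt T w a b c d)
    {p q u : ℂ} (hp : p ∈ closure (Ex T w {a, b})) (hqd : dist q w = 1)
    (hp3 : (T p).ncard ≤ 3) (hu : u = p + q - w) (hpq : p ≠ q)
    (hpq2 : p + q ≠ 2 * w) {m : Fin 6} (hm : m ∈ ({a, b} : Set (Fin 6))) (hmu : m ∈ T u) :
    ∃ l, l ∉ T w ∧ T p = {a, b, l} := by
  have hpd := dist_of_closure hp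
  have hab : ({a, b} : Set (Fin 6)) ⊆ T p := sub_of_closure h hp
  -- not all points near `p` are in the closure
  have h1 : ∃ l, l ∉ T w ∧ l ∈ T p := by
    by_contra hcon
    push Not at hcon
    refine cell_rule h hqd hu hpq hpq2 hmu hpd ?_
    filter_upwards [mem_nhdsWithin_of_mem_nhds (near_cl h hmin hw hp hp3), self_mem_nhdsWithin]
      with g h2 h3
    rcases h2 h3 with h4 | ⟨l, hl, hlp, -⟩
    · exact sub_of_closure h h4 hm
    · exact absurd hlp (hcon l hl)
  obtain ⟨l, hl, hlp⟩ := h1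
  have hla : l ≠ a := fun h2 => hl (by rw [h2]; exact ab_sub hw (by simp))
  have hlb : l ≠ b := fun h2 => hl (by rw [h2]; exact ab_sub hw (by simp))
  refine ⟨l, hl, (Set.eq_of_subset_of_ncard_le (s := {a, b, l}) ?_ ?_ (Set.toFinite _)).symm⟩
  · rintro i (rfl | rfl | rfl)
    · exact hab (by simp)
    · exact hab (by simp)
    · exact hlp
  · refine hp3.trans (le_of_eq ?_)
    rw [Set.ncard_eq_three.2]
    exact ⟨a, b, l, hw.ab, hla.symm, hlb.symm, rfl⟩

theorem card_compl {w : ℂ} {a b c d : Fin 6} (hw : DPt T w a b c d) : (T w)ᶜ.ncard = 2 := by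
  have h1 := Set.ncard_add_ncard_compl (T w)
  rw [DPt_card hw, Nat.card_eq_fintype_card, Fintype.card_fin] at h1
  omega

/-- at a cell point: an end `p` of the arcs and a point `u` with the two free colours -/
structure Cl (U : Fin 6 → Set ℂ) (T : ℂ → Set (Fin 6)) (w : ℂ) (a b c d : Fin 6)
    (p q u : ℂ) : Prop where
  irr : Irr U T
  mn : Mn U T
  D : DPt T w a b c d
  hp : p ∈ closure (Ex T w {a, b})
  hqd : dist q w = 1
  hp3 : (T p).ncard ≤ 3
  hu : u = p + q - w
  ne : p ≠ q
  ne2 : p + q ≠ 2 * w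
  u4 : (T u).ncard ≤ 4
  col : ∀ i, i ∉ T w → i ∈ T u

namespace Cl

variable {w p q u : ℂ} {a b c d : Fin 6}

theorem swap12 (C : Cl U T w a b c d p q u) : Cl U T w b a c d p q u :=
  { C with
    D := C.D.swap12
    hp := by rw [pair_comm]; exact C.hp }

theorem hpd (C : Cl U T w a b c d p q u) : dist p w = 1 := dist_of_closure C.hp

theorem hpu (C : Cl U T w a b c d p q u) : dist p u = 1 := by
  have h1 := C.hqd
  rw [dist_eq_norm] at h1 ⊢
  rw [C.hu, ← h1, ← norm_neg]; congr 1; ring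

theorem wu (C : Cl U T w a b c d p q u) : w ≠ u := by
  intro h
  exact C.ne2 (by have := C.hu; rw [← h] at this; linear_combination -this)

theorem wu2 (C : Cl U T w a b c d p q u) : w + u ≠ 2 * p := by
  intro h
  exact C.ne (by rw [C.hu] at h; linear_combination -h)

/-- a colour of `T w` is not on a whole arc of `S(u)` at `p` -/
theorem not_arc (C : Cl U T w a b c d p q u) {i : Fin 6} (hi : i ∈ T w)
    (hJ : ∀ᶠ g in 𝓝[sphere u 1] p, i ∈ T g) : False :=
  line_free C.irr C.hpu hJ C.hpd C.wu C.wu2 (C.irr.sub w hi)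

theorem three (C : Cl U T w a b c d p q u) (ha : a ∈ T u) :
    ∃ l, l ∉ T w ∧ T p = {a, b, l} :=
  end_three C.irr C.mn C.D C.hp C.hqd C.hp3 C.hu C.ne C.ne2 (by simp) ha

theorem card_three (C : Cl U T w a b c d p q u) {l : Fin 6} (hl : l ∉ T w)
    (hp : T p = {a, b, l}) : (T p).ncard = 3 := by
  rw [hp, Set.ncard_eq_three]
  exact ⟨a, b, l, C.D.ab, fun h2 => hl (by rw [← h2]; exact ab_sub C.D (by simp)),
    fun h2 => hl (by rw [← h2]; exact ab_sub C.D (by simp)), rfl⟩

/-- `T u` has four colours as soon as two colours of `T w` are in it -/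
theorem card_four (C : Cl U T w a b c d p q u) {i j : Fin 6} (hij : i ≠ j) (hi : i ∈ T w)
    (hj : j ∈ T w) (hiu : i ∈ T u) (hju : j ∈ T u) : (T u).ncard = 4 := by
  refine le_antisymm C.u4 ?_
  have h1 : ({i, j} : Set (Fin 6)) ∪ (T w)ᶜ ⊆ T u := by
    rintro m ((rfl | rfl) | hm)
    · exact hiu
    · exact hju
    · exact C.col m hm
  have h2 : Disjoint ({i, j} : Set (Fin 6)) (T w)ᶜ := by
    rw [Set.disjoint_left]
    rintro m (rfl | rfl) hm
    · exact hm hi
    · exact hm hj
  have h3 := Set.ncard_union_eq h2 (Set.toFinite _) (Set.toFinite _)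
  rw [card_compl C.D, Set.ncard_pair hij] at h3
  have h4 := Set.ncard_le_ncard h1 (Set.toFinite _)
  omega

theorem not_both (C : Cl U T w a b c d p q u) (ha : a ∈ T u) (hb : b ∈ T u) : False := by
  obtain ⟨l, hl, hpT⟩ := C.three ha
  have h4 : (T u).ncard = 4 :=
    C.card_four C.D.ab (ab_sub C.D (by simp)) (ab_sub C.D (by simp)) ha hb
  have hp3 := C.card_three hl hpT
  have hsub : T p ⊆ T u := by
    rw [hpT]
    rintro i (rfl | rfl | rfl)
    · exact ha
    · exact hb
    · exact C.col _ hl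
  obtain ⟨g1, -, hg1d, -, hg1s, hg12, hg13⟩ := C.irr.arc_of_sub C.hpu hsub univ_mem
  have hg1u : T g1 ⊆ T u := hg1s.trans hsub
  have hg1c : (T g1).ncard = 2 := by
    have := Set.ncard_sdiff hg1u (Set.toFinite _)
    omega
  have key : ∀ᶠ g in 𝓝[sphere u 1] p, T g1 ⊆ T g := by
    filter_upwards [mem_nhdsWithin_of_mem_nhds (C.irr.nhd p), self_mem_nhdsWithin] with g h1 h2
    obtain ⟨g2, -, hg2d, -, hg2s, hg22, hg23⟩ := C.irr.arc_of_sub (x := u) (y := g) h2
      (h1.trans hsub) univ_mem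
    have hg2u : T g2 ⊆ T u := hg2s.trans (h1.trans hsub)
    have hg2c : (T g2).ncard = 2 := by
      have := Set.ncard_sdiff hg2u (Set.toFinite _)
      omega
    rcases C.irr.pairs_disjoint C.mn h4 hg1d hg2d hg1u hg2u hg1c hg2c with h5 | h5
    · rw [h5]; exact hg2s
    · exfalso
      have h6 := Set.ncard_union_eq h5 (Set.toFinite _) (Set.toFinite _)
      have h7 := Set.ncard_le_ncard (union_subset hg1s (hg2s.trans h1)) (Set.toFinite _)
      omega
  -- a colour of the pair
  have h8 : a ∈ T g1 ∨ b ∈ T g1 := by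
    by_contra hcon
    push Not at hcon
    have h9 : T g1 ⊆ {l} := by
      intro i hi
      have := hg1s hi
      rw [hpT] at this
      rcases this with rfl | rfl | h10
      · exact absurd hi hcon.1
      · exact absurd hi hcon.2
      · exact h10
    have h10 := Set.ncard_le_ncard h9 (Set.toFinite _)
    rw [Set.ncard_singleton] at h10
    omega
  rcases h8 with h8 | h8
  · exact C.not_arc (ab_sub C.D (by simp)) (key.mono fun g hg => hg h8)
  · exact C.not_arc (ab_sub C.D (by simp)) (key.mono fun g hg => hg h8)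

theorem not_three (C : Cl U T w a b c d p q u) (hu3 : (T u).ncard ≤ 3) (ha : a ∈ T u) :
    False := by
  obtain ⟨l, hl, hpT⟩ := C.three ha
  have hsub : T p ⊆ insert b (T u) := by
    rw [hpT]
    rintro i (rfl | rfl | rfl)
    · exact Or.inr ha
    · exact Or.inl rfl
    · exact Or.inr (C.col _ hl)
  rcases C.irr.lemmaX C.hpu hu3 hsub C.hpd (C.irr.sub w (ab_sub C.D (show b ∈ ({a, b} : Set _) by
    simp))) with h1 | h1
  · exact C.wu h1
  · exact C.wu2 h1

theorem exists_pair (C : Cl U T w a b c d p q u) (ha : a ∈ T u) {l : Fin 6}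
    (hl : l ∉ T w) (hpT : T p = {a, b, l}) : ∃ g, dist g u = 1 ∧ T g = {a, l} := by
  by_contra hcon
  push Not at hcon
  refine C.not_arc (i := b) (ab_sub C.D (by simp)) ?_
  filter_upwards [mem_nhdsWithin_of_mem_nhds (C.irr.nhd p), self_mem_nhdsWithin] with g h1 h2
  by_contra hb
  have h3 : T g ⊆ {a, l} := by
    intro i hi
    have := h1 hi
    rw [hpT] at this
    rcases this with h4 | h4 | h4
    · exact Or.inl h4
    · exact absurd (h4 ▸ hi) hb
    · exact Or.inr h4
  have hal : a ≠ l := fun h4 => hl (by rw [← h4]; exact ab_sub C.D (by simp))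
  have h5 := C.irr.pair_open (z := u) (y := g) (Set.ncard_pair hal) (by
    rintro i (rfl | h6)
    · exact ha
    · rw [mem_singleton_iff] at h6; subst h6; exact C.col _ hl) h3
  have h6 : T g = {a, l} := h5.self_of_nhdsWithin h2
  exact hcon g h2 h6

theorem mixed (C : Cl U T w a b c d p q u) (C' : Cl U T w c d a b q p u) (ha : a ∈ T u)
    (hc : c ∈ T u) : T p ∪ T q = univ := by
  obtain ⟨l, hl, hpT⟩ := C.three ha
  obtain ⟨l', hl', hqT⟩ := C'.three hc
  have hcw : c ∈ T w := ab_sub C.D.swap (by simp)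
  have haw : a ∈ T w := ab_sub C.D (by simp)
  by_cases hll : l = l'
  · exfalso
    subst hll
    obtain ⟨g, hgd, hg⟩ := C.exists_pair ha hl hpT
    obtain ⟨g', hgd', hg'⟩ := C'.exists_pair hc hl' hqT
    have h4 := C.card_four C.D.ac haw hcw ha hc
    have hal : a ≠ l := fun h4 => hl (by rw [← h4]; exact haw)
    have hcl : c ≠ l := fun h4 => hl (by rw [← h4]; exact hcw)
    have hlu := C.col l hl
    rcases C.irr.pairs_disjoint C.mn h4 hgd hgd' (by
      rw [hg]
      rintro i (rfl | h6)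
      · exact ha
      · rw [mem_singleton_iff] at h6; subst h6; exact hlu) (by
      rw [hg']
      rintro i (rfl | h6)
      · exact hc
      · rw [mem_singleton_iff] at h6; subst h6; exact hlu) (by
      rw [hg]; exact Set.ncard_pair hal) (by rw [hg']; exact Set.ncard_pair hcl) with h5 | h5
    · have h6 : a ∈ T g' := by rw [← h5, hg]; simp
      rw [hg'] at h6
      rcases h6 with h6 | h6
      · exact C.D.ac h6
      · exact hal h6
    · rw [Set.disjoint_left] at h5
      exact h5 (by rw [hg]; simp : l ∈ T g) (by rw [hg']; simp)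
  · have hE : ({l, l'} : Set (Fin 6)) = (T w)ᶜ := by
      refine Set.eq_of_subset_of_ncard_le ?_ (by rw [card_compl C.D, Set.ncard_pair hll])
        (Set.toFinite _)
      rintro i (rfl | h6)
      · exact hl
      · rw [mem_singleton_iff] at h6; subst h6; exact hl'
    rw [eq_univ_iff_forall]
    intro i
    by_cases hi : i ∈ T w
    · rw [C.D.pal] at hi
      rcases hi with rfl | rfl | rfl | h6
      · left; rw [hpT]; simp
      · left; rw [hpT]; simp
      · right; rw [hqT]; simp
      · rw [mem_singleton_iff] at h6; subst h6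
        right; rw [hqT]; simp
    · have h7 : i ∈ ({l, l'} : Set (Fin 6)) := by rw [hE]; exact hi
      rcases h7 with rfl | h7
      · left; rw [hpT]; simp
      · rw [mem_singleton_iff] at h7; subst h7
        right; rw [hqT]; simp

theorem only (C : Cl U T w a b c d p q u) (ha : a ∈ T u) (hc : c ∉ T u) (hd : d ∉ T u) :
    False := by
  by_cases hb : b ∈ T u
  · exact C.not_both ha hb
  refine C.not_three ?_ ha
  have h1 : T u ⊆ insert a (T w)ᶜ := by
    intro i hi
    by_cases hiw : i ∈ T w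
    · rw [C.D.pal] at hiw
      rcases hiw with rfl | rfl | rfl | h6
      · exact Or.inl rfl
      · exact absurd hi hb
      · exact absurd hi hc
      · rw [mem_singleton_iff] at h6; subst h6
        exact absurd hi hd
    · exact Or.inr hiw
  have h2 := Set.ncard_le_ncard h1 (Set.toFinite _)
  have h3 := Set.ncard_insert_le a (T w)ᶜ
  rw [card_compl C.D] at h3
  omega

/-- **dichotomy**: only the two free colours, or a complementary corner -/
theorem dich (C : Cl U T w a b c d p q u) (C' : Cl U T w c d a b q p u) :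
    (∀ m ∈ T u, m ∉ T w) ∨ T p ∪ T q = univ := by
  have hcomm : ∀ {x y : Set (Fin 6)}, x ∪ y = univ → y ∪ x = univ := fun h => by
    rw [union_comm]; exact h
  by_cases ha : a ∈ T u
  · right
    by_cases hc : c ∈ T u
    · exact C.mixed C' ha hc
    by_cases hd : d ∈ T u
    · have C1 : Cl U T w a b d c p q u := { C with D := C.D.swap34 }
      exact C1.mixed C'.swap12 ha hd
    · exact (C.only ha hc hd).elim
  by_cases hb : b ∈ T u
  · right
    by_cases hc : c ∈ T u
    · have C2 : Cl U T w c d b a q p u := { C' with D := C'.D.swap34 }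
      exact C.swap12.mixed C2 hb hc
    by_cases hd : d ∈ T u
    · have C1 : Cl U T w b a d c p q u := { C.swap12 with D := C.D.swap12.swap34 }
      have C2 : Cl U T w d c b a q p u := { C'.swap12 with D := C'.D.swap12.swap34 }
      exact C1.mixed C2 hb hd
    · exact (C.swap12.only hb hc hd).elim
  by_cases hc : c ∈ T u
  · exact (C'.only hc ha hb).elim
  by_cases hd : d ∈ T u
  · exact (C'.swap12.only hd ha hb).elim
  left
  intro m hm hmw
  rw [C.D.pal] at hmw
  rcases hmw with rfl | rfl | rfl | h6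
  · exact ha hm
  · exact hb hm
  · exact hc hm
  · rw [mem_singleton_iff] at h6; subst h6; exact hd hm

end Cl

/-! ### The closing of a net of complementary corners -/

/-- the cells of `w`: `p + q - w` for `p`, `q` in the closures of the exact arcs of the two pairs -/
def Cell (T : ℂ → Set (Fin 6)) (w : ℂ) : Set ℂ :=
  {u | ∃ P Q : Set (Fin 6), P.ncard = 2 ∧ Q.ncard = 2 ∧ Disjoint P Q ∧ P ∪ Q = T w ∧
    ∃ p ∈ closure (Ex T w P), ∃ q ∈ closure (Ex T w Q), u = p + q - w}

/-- the points of the cells with all the colours outside `T w` -/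
def OO (T : ℂ → Set (Fin 6)) (w : ℂ) : Set ℂ := {u | (∀ i, i ∉ T w → i ∈ T u) ∧ u ∈ Cell T w}

/-- a two-pair point whose exact arcs have plain ends -/
structure Good (T : ℂ → Set (Fin 6)) (w : ℂ) : Prop where
  D : ∃ a b c d, DPt T w a b c d
  h3 : ∀ P : Set (Fin 6), P.ncard = 2 → P ⊆ T w → ∀ y ∈ closure (Ex T w P), (T y).ncard ≤ 3

theorem isCompact_cl {w : ℂ} (P : Set (Fin 6)) : IsCompact (closure (Ex T w P)) :=
  (isCompact_sphere w 1).of_isClosed_subset isClosed_closure
    (closure_minimal (fun _ hq => hq.1) isClosed_sphere)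

theorem isClosed_Cell (w : ℂ) : IsClosed (Cell T w) := by
  have h1 : Cell T w = ⋃ P : Set (Fin 6), ⋃ Q : Set (Fin 6),
      {u | (P.ncard = 2 ∧ Q.ncard = 2 ∧ Disjoint P Q ∧ P ∪ Q = T w) ∧
        u ∈ (fun x : ℂ × ℂ => x.1 + x.2 - w) '' (closure (Ex T w P) ×ˢ closure (Ex T w Q))} := by
    ext u
    simp only [Cell, mem_ofPred_eq, mem_iUnion, mem_image, Prod.exists, Set.mem_prod]
    constructor
    · rintro ⟨P, Q, h1, h2, h3, h4, p, hp, q, hq, rfl⟩
      exact ⟨P, Q, ⟨h1, h2, h3, h4⟩, p, q, ⟨hp, hq⟩, rfl⟩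
    · rintro ⟨P, Q, ⟨h1, h2, h3, h4⟩, p, q, ⟨hp, hq⟩, rfl⟩
      exact ⟨P, Q, h1, h2, h3, h4, p, hp, q, hq, rfl⟩
  rw [h1]
  refine isClosed_iUnion_of_finite fun P => isClosed_iUnion_of_finite fun Q => ?_
  by_cases h2 : P.ncard = 2 ∧ Q.ncard = 2 ∧ Disjoint P Q ∧ P ∪ Q = T w
  · have h3 : {u | (P.ncard = 2 ∧ Q.ncard = 2 ∧ Disjoint P Q ∧ P ∪ Q = T w) ∧
        u ∈ (fun x : ℂ × ℂ => x.1 + x.2 - w) '' (closure (Ex T w P) ×ˢ closure (Ex T w Q))} =
        (fun x : ℂ × ℂ => x.1 + x.2 - w) '' (closure (Ex T w P) ×ˢ closure (Ex T w Q)) := by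
      ext u
      exact ⟨fun h => h.2, fun h => ⟨h2, h⟩⟩
    rw [h3]
    exact (((isCompact_cl P).prod (isCompact_cl Q)).image (by fun_prop)).isClosed
  · have h3 : {u | (P.ncard = 2 ∧ Q.ncard = 2 ∧ Disjoint P Q ∧ P ∪ Q = T w) ∧
        u ∈ (fun x : ℂ × ℂ => x.1 + x.2 - w) '' (closure (Ex T w P) ×ˢ closure (Ex T w Q))} =
        ∅ := by
      ext u
      exact ⟨fun h => h2 h.1, fun h => h.elim⟩
    rw [h3]
    exact isClosed_empty

theorem isClosed_OO (h : Irr U T) (w : ℂ) : IsClosed (OO T w) := by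
  have h1 : OO T w = (⋂ i ∈ {i | i ∉ T w}, {u | i ∈ T u}) ∩ Cell T w := by
    ext u
    simp only [OO, mem_ofPred_eq, mem_inter_iff, mem_iInter]
  rw [h1]
  exact (isClosed_biInter fun i _ => h.closed i).inter (isClosed_Cell w)

theorem Cell_sub (w : ℂ) : Cell T w ⊆ closedBall w 2 := by
  rintro u ⟨P, Q, -, -, -, -, p, hp, q, hq, rfl⟩
  have h1 := dist_of_closure hp
  have h2 := dist_of_closure hq
  rw [mem_closedBall, dist_eq_norm]
  rw [dist_eq_norm] at h1 h2
  have h3 : p + q - w - w = (p - w) + (q - w) := by ring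
  rw [h3]
  refine (norm_add_le _ _).trans ?_
  rw [h1, h2]; norm_num

/-- the data at a point of `OO` -/
theorem OO_data (h : Irr U T) (hmin : Mn U T) {w : ℂ} (hG : Good T w)
    (h4 : ∀ u ∈ Cell T w, (T u).ncard ≤ 4) {u : ℂ} (hu : u ∈ OO T w) :
    ∃ a b c d p q, q ∈ closure (Ex T w {c, d}) ∧ Cl U T w a b c d p q u ∧
      Cl U T w c d a b q p u := by
  obtain ⟨hcol, P, Q, hP, hQ, hd, hPQ, p, hp, q, hq, rfl⟩ := hu
  obtain ⟨a, b, hab, rfl⟩ := Set.ncard_eq_two.1 hP
  obtain ⟨c, d, hcd, rfl⟩ := Set.ncard_eq_two.1 hQ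
  rw [Set.disjoint_left] at hd
  have hpal : T w = {a, b, c, d} := by
    rw [← hPQ]; ext i; simp only [mem_union, mem_insert_iff, mem_singleton_iff]; tauto
  have hne1 : (Ex T w {a, b}).Nonempty := closure_nonempty_iff.1 ⟨p, hp⟩
  have hne2 : (Ex T w {c, d}).Nonempty := closure_nonempty_iff.1 ⟨q, hq⟩
  obtain ⟨p0, hp0⟩ := hne1
  obtain ⟨q0, hq0⟩ := hne2
  have D : DPt T w a b c d := by
    refine ⟨hpal, ?_, ?_, ?_, ?_, hab, hcd, ⟨p0, hp0⟩, ⟨q0, hq0⟩⟩
    · rintro rfl; exact hd (a := a) (by simp) (by simp)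
    · rintro rfl; exact hd (a := a) (by simp) (by simp)
    · rintro rfl; exact hd (a := b) (by simp) (by simp)
    · rintro rfl; exact hd (a := b) (by simp) (by simp)
  have hp3 := hG.h3 _ hP (by rw [← hPQ]; exact subset_union_left) p hp
  have hq3 := hG.h3 _ hQ (by rw [← hPQ]; exact subset_union_right) q hq
  have hpq : p ≠ q := by
    rintro rfl
    have h1 : T w ⊆ T p := by
      rw [← hPQ]; exact union_subset (sub_of_closure h hp) (sub_of_closure h hq)
    have h5 := Set.ncard_le_ncard h1 (Set.toFinite _)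
    rw [DPt_card D] at h5
    omega
  have hex : ∃ i, i ∉ T w := by
    by_contra hcon
    push Not at hcon
    have h1 : (T w)ᶜ = ∅ := by
      rw [compl_empty_iff, eq_univ_iff_forall]; exact hcon
    have h2 := card_compl D
    rw [h1, Set.ncard_empty] at h2
    omega
  have hpq2 : p + q ≠ 2 * w := by
    intro h1
    obtain ⟨i, hi⟩ := hex
    have h2 : p + q - w = w := by linear_combination h1
    exact hi (by have := hcol i hi; rwa [h2] at this)
  have hu4 : (T (p + q - w)).ncard ≤ 4 :=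
    h4 _ ⟨{a, b}, {c, d}, hP, hQ, Set.disjoint_left.2 hd, hPQ, p, hp, q, hq, rfl⟩
  exact ⟨a, b, c, d, p, q, hq, ⟨h, hmin, D, hp, dist_of_closure hq, hp3, rfl, hpq, hpq2, hu4, hcol⟩,
    ⟨h, hmin, D.swap, hq, dist_of_closure hp, hq3, by ring, hpq.symm,
      by rw [add_comm]; exact hpq2, hu4, hcol⟩⟩

/-- **near a point of `OO` the points with the free colours are in `OO`** -/
theorem OO_near (h : Irr U T) (hmin : Mn U T) {w : ℂ} (hG : Good T w)
    (h4 : ∀ u ∈ Cell T w, (T u).ncard ≤ 4) {u : ℂ} (hu : u ∈ OO T w) :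
    ∀ᶠ y in 𝓝 u, (∀ i, i ∉ T w → i ∈ T y) → y ∈ OO T w := by
  obtain ⟨a, b, c, d, p, q, hq, C, C'⟩ := OO_data h hmin hG h4 hu
  filter_upwards [near h hmin C.D C.hp hq C.hp3 C'.hp3 C.hu C.ne2] with y hy hcol
  obtain ⟨p', hp', q', hq', rfl⟩ := hy hcol
  refine ⟨hcol, {a, b}, {c, d}, Set.ncard_pair C.D.ab, Set.ncard_pair C.D.cd, ?_, ?_, p', hp',
    q', hq', rfl⟩
  · rw [Set.disjoint_left]
    rintro i (rfl | h1) (rfl | h2)
    · exact C.D.ac rfl
    · exact C.D.ad h2
    · exact C.D.bc h1.symm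
    · exact C.D.bd (h1.symm.trans h2)
  · rw [C.D.pal]; ext i; simp only [mem_union, mem_insert_iff, mem_singleton_iff]; tauto

/-- **No closed net.** `D` is a nonempty locally finite set of two-pair points with plain ends,
closed under complementary corners, such that every member `w` is, for every colour of one pair and
every colour of the other pair, a cell point of a member without these two colours. -/
theorem no_net (h : Irr U T) (hmin : Mn U T) {D : Set ℂ} (hne : D.Nonempty)
    (hfin : ∀ R, (D ∩ closedBall 0 R).Finite) (hG : ∀ w ∈ D, Good T w)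
    (h4 : ∀ w ∈ D, ∀ u ∈ Cell T w, (T u).ncard ≤ 4)
    (hedge : ∀ w ∈ D, ∀ a b c d, DPt T w a b c d → ∃ w' ∈ D, a ∉ T w' ∧ c ∉ T w' ∧ w ∈ Cell T w')
    (hcorner : ∀ w ∈ D, ∀ P Q : Set (Fin 6), P.ncard = 2 → Q.ncard = 2 → Disjoint P Q →
      P ∪ Q = T w → ∀ p ∈ closure (Ex T w P), ∀ q ∈ closure (Ex T w Q), T p ∪ T q = univ →
      p + q ≠ 2 * w → p + q - w ∈ D) : False := by
  -- a member is in the set of the partner
  have hmem : ∀ w ∈ D, ∀ a b c d, DPt T w a b c d → ∃ w' ∈ D, w ∈ OO T w' ∧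
      (T w')ᶜ = {a, c} := by
    intro w hw a b c d hD
    obtain ⟨w', hw', ha, hc, hcell⟩ := hedge w hw a b c d hD
    obtain ⟨a', b', c', d', hD'⟩ := (hG w' hw').D
    have h1 : ({a, c} : Set (Fin 6)) = (T w')ᶜ := by
      refine Set.eq_of_subset_of_ncard_le ?_ (by rw [card_compl hD', Set.ncard_pair hD.ac])
        (Set.toFinite _)
      rintro i (rfl | h2)
      · exact ha
      · rw [mem_singleton_iff] at h2; subst h2; exact hc
    refine ⟨w', hw', ⟨fun i hi => ?_, hcell⟩, h1.symm⟩
    have h2 : i ∈ ({a, c} : Set (Fin 6)) := by rw [h1]; exact hi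
    rcases h2 with rfl | h2
    · rw [hD.pal]; simp
    · rw [mem_singleton_iff] at h2; subst h2; rw [hD.pal]; simp
  -- dichotomy
  have hdich : ∀ w ∈ D, ∀ u ∈ OO T w, (∀ m ∈ T u, m ∉ T w) ∨ u ∈ D := by
    intro w hw u hu
    obtain ⟨a, b, c, d, p, q, hq, C, C'⟩ := OO_data h hmin (hG w hw) (h4 w hw) hu
    rcases C.dich C' with h1 | h1
    · exact Or.inl h1
    · right
      rw [C.hu]
      refine hcorner w hw {a, b} {c, d} (Set.ncard_pair C.D.ab) (Set.ncard_pair C.D.cd) ?_ ?_ p
        C.hp q hq h1 C.ne2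
      · rw [Set.disjoint_left]
        rintro i (rfl | h1) (rfl | h2)
        · exact C.D.ac rfl
        · exact C.D.ad h2
        · exact C.D.bc h1.symm
        · exact C.D.bd (h1.symm.trans h2)
      · rw [C.D.pal]; ext i; simp only [mem_union, mem_insert_iff, mem_singleton_iff]; tauto
  let Ω : Set ℂ := ⋃ w ∈ D, OO T w
  -- closed
  have hΩ : IsClosed Ω := by
    refine isClosed_of_closure_subset fun x hx => ?_
    obtain ⟨R, hR⟩ : ∃ R : ℝ, ball x 1 ⊆ closedBall 0 R := by
      refine ⟨1 + dist x 0, fun y hy => ?_⟩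
      rw [mem_ball] at hy
      rw [mem_closedBall]
      have := dist_triangle y x 0
      linarith
    let Ω' : Set ℂ := ⋃ w ∈ D ∩ closedBall 0 (R + 2), OO T w
    have hΩ' : IsClosed Ω' := (hfin (R + 2)).isClosed_biUnion fun w _ => isClosed_OO h w
    have h1 : x ∈ closure Ω' := by
      rw [mem_closure_iff_nhds] at hx ⊢
      intro t ht
      obtain ⟨y, ⟨hy1, hy2⟩, hy3⟩ := hx (t ∩ ball x 1) (inter_mem ht (ball_mem_nhds x one_pos))
      refine ⟨y, hy1, ?_⟩
      obtain ⟨w, hw, hyw⟩ := mem_iUnion₂.1 hy3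
      refine mem_iUnion₂.2 ⟨w, ⟨hw, ?_⟩, hyw⟩
      have h2 := Cell_sub w hyw.2
      have h3 := hR hy2
      rw [mem_closedBall] at h2 h3 ⊢
      have := dist_triangle w y 0
      rw [dist_comm] at h2
      linarith
    have h2 : x ∈ Ω' := hΩ'.closure_subset h1
    obtain ⟨w, hw, hxw⟩ := mem_iUnion₂.1 h2
    exact mem_iUnion₂.2 ⟨w, hw.1, hxw⟩
  -- members are in the set
  have hDΩ : ∀ w ∈ D, w ∈ Ω := by
    intro w hw
    obtain ⟨a, b, c, d, hD⟩ := (hG w hw).D
    obtain ⟨w', hw', hww', -⟩ := hmem w hw a b c d hD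
    exact mem_iUnion₂.2 ⟨w', hw', hww'⟩
  -- relatively open
  have hop : ∀ x ∈ Ω, ∀ᶠ y in 𝓝 x, 2 ≤ (T y).ncard → y ∈ Ω := by
    intro x hx
    obtain ⟨w, hw, hxw⟩ := mem_iUnion₂.1 hx
    rcases hdich w hw x hxw with h1 | h1
    · obtain ⟨a, b, c, d, hD⟩ := (hG w hw).D
      filter_upwards [OO_near h hmin (hG w hw) (h4 w hw) hxw, h.nhd x] with y hy1 hy2 hy3
      have h2 : T y ⊆ (T w)ᶜ := fun i hi => h1 i (hy2 hi)
      have h3 : T y = (T w)ᶜ :=
        Set.eq_of_subset_of_ncard_le h2 (by rw [card_compl hD]; exact hy3) (Set.toFinite _)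
      exact mem_iUnion₂.2 ⟨w, hw, hy1 fun i hi => by rw [h3]; exact hi⟩
    · obtain ⟨a, b, c, d, hD⟩ := (hG x h1).D
      have key : ∀ a b c d, DPt T x a b c d → ∀ᶠ y in 𝓝 x, a ∈ T y → c ∈ T y → y ∈ Ω := by
        intro a b c d hD
        obtain ⟨w', hw', hxw', hE⟩ := hmem x h1 a b c d hD
        filter_upwards [OO_near h hmin (hG w' hw') (h4 w' hw') hxw'] with y hy ha hc
        refine mem_iUnion₂.2 ⟨w', hw', hy fun i hi => ?_⟩
        have h2 : i ∈ ({a, c} : Set (Fin 6)) := by rw [← hE]; exact hi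
        rcases h2 with rfl | h2
        · exact ha
        · rw [mem_singleton_iff] at h2; subst h2; exact hc
      filter_upwards [h.nhd x, pair_sep h hD, pair_sep h hD.swap, key a b c d hD,
        key a b d c hD.swap34, key b a c d hD.swap12, key b a d c hD.swap12.swap34]
        with y hy hab hcd h5 h6 h7 h8 hy3
      by_cases hyx : y = x
      · rw [hyx]; exact hDΩ x h1
      have h2 : (a ∈ T y ∨ b ∈ T y) ∧ (c ∈ T y ∨ d ∈ T y) := by
        constructor
        · by_contra hcon
          push Not at hcon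
          have h9 : T y ⊆ {c, d} := by
            intro i hi
            have h10 := hy hi
            rw [hD.pal] at h10
            rcases h10 with rfl | rfl | h10
            · exact absurd hi hcon.1
            · exact absurd hi hcon.2
            · exact h10
          have h10 : T y = {c, d} :=
            Set.eq_of_subset_of_ncard_le h9 (by rw [Set.ncard_pair hD.cd]; exact hy3)
              (Set.toFinite _)
          exact hyx (hcd (by rw [h10]; simp) (by rw [h10]; simp))
        · by_contra hcon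
          push Not at hcon
          have h9 : T y ⊆ {a, b} := by
            intro i hi
            have h10 := hy hi
            rw [hD.pal] at h10
            rcases h10 with rfl | rfl | rfl | h10
            · simp
            · simp
            · exact absurd hi hcon.1
            · rw [mem_singleton_iff] at h10; subst h10; exact absurd hi hcon.2
          have h10 : T y = {a, b} :=
            Set.eq_of_subset_of_ncard_le h9 (by rw [Set.ncard_pair hD.ab]; exact hy3)
              (Set.toFinite _)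
          exact hyx (hab (by rw [h10]; simp) (by rw [h10]; simp))
      rcases h2 with ⟨h9 | h9, h10 | h10⟩
      · exact h5 h9 h10
      · exact h6 h9 h10
      · exact h7 h9 h10
      · exact h8 h9 h10
  -- a plain end
  obtain ⟨w, hw⟩ := hne
  obtain ⟨a, b, c, d, hD⟩ := (hG w hw).D
  have hwX : w ∈ XX U := by
    obtain ⟨g, hg⟩ := hD.arc1
    have hgT : T g = {a, b} := hg.mem
    exact h.mem_XX (by rw [dist_comm]; exact hg.1) (show a ∈ T w by rw [hD.pal]; simp)
      (h.sub g (by rw [hgT]; simp))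
  have hall := h.close hΩ hop (hDΩ w hw) hwX
  have hend : ∃ p, p ∈ XX U ∧ (T p).ncard = 3 := by
    obtain ⟨w', hw', hww', hE⟩ := hmem w hw a b c d hD
    obtain ⟨a', b', c', d', p, q, hq, C, C'⟩ := OO_data h hmin (hG w' hw') (h4 w' hw') hww'
    have hb : b ∈ T w' := by
      by_contra hcon
      have h2 : b ∈ ({a, c} : Set (Fin 6)) := by rw [← hE]; exact hcon
      rcases h2 with h2 | h2
      · exact hD.ab h2.symm
      · exact hD.bc h2
    have hbw : b ∈ T w := by rw [hD.pal]; simp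
    have fin : ∀ {a' b' c' d' : Fin 6} {p q : ℂ}, Cl U T w' a' b' c' d' p q w → a' ∈ T w →
        p ∈ XX U ∧ (T p).ncard = 3 := by
      intro a' b' c' d' p q C ha
      obtain ⟨l, hl, hp⟩ := C.three ha
      exact ⟨h.mem_XX C.hpd (show a' ∈ T p by rw [hp]; simp)
        (h.sub w' (ab_sub C.D (by simp))), C.card_three hl hp⟩
    have hb' := hb
    rw [C.D.pal] at hb'
    rcases hb' with h2 | h2 | h2 | h2
    · exact ⟨p, fin C (h2 ▸ hbw)⟩
    · exact ⟨p, fin C.swap12 (h2 ▸ hbw)⟩
    · exact ⟨q, fin C' (h2 ▸ hbw)⟩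
    · rw [mem_singleton_iff] at h2
      exact ⟨q, fin C'.swap12 (h2 ▸ hbw)⟩
  obtain ⟨p, hpX, hp3⟩ := hend
  obtain ⟨w1, hw1, hpw1⟩ := mem_iUnion₂.1 (hall hpX)
  rcases hdich w1 hw1 p hpw1 with h1 | h1
  · obtain ⟨a1, b1, c1, d1, hD1⟩ := (hG w1 hw1).D
    have h2 := Set.ncard_le_ncard (show T p ⊆ (T w1)ᶜ from h1) (Set.toFinite _)
    rw [card_compl hD1] at h2
    omega
  · obtain ⟨a1, b1, c1, d1, hD1⟩ := (hG p h1).D
    have h2 := DPt_card hD1
    omega

end Vale.Agent.P032.H926
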