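import Mathlib

/-!
# P032: a lifting lemma (unicoherence of the plane)

If the plane is the union of two closed connected sets `A`, `B` and a continuous function takes only
the values `0` and `1` on `A ∩ B`, then it does not take both.
-/

open Set Filter Topology Metric

noncomputable section

namespace Vale.Agent.P032.H926

/-- a continuous real function with values in `2ℤ` on a connected set is constant there -/
theorem const_of_even {A : Set ℂ} (hA : IsPreconnected A) {h : ℂ → ℝ} (hc : Continuous h)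
    (hv : ∀ x ∈ A, ∃ n : ℤ, h x = 2 * n) {x y : ℂ} (hx : x ∈ A) (hy : y ∈ A) : h x = h y := by
  have key : ∀ x ∈ A, ∀ y ∈ A, ¬ h x < h y := by
    intro x hx y hy hlt
    obtain ⟨m, hm⟩ := hv x hx
    obtain ⟨n, hn⟩ := hv y hy
    have hmn : m + 1 ≤ n := by
      have : (m : ℝ) < n := by linarith
      have : m < n := by exact_mod_cast this
      omega
    have h1 : h x + 1 ∈ Icc (h x) (h y) := by
      have : ((m + 1 : ℤ) : ℝ) ≤ n := by exact_mod_cast hmn
      push_cast at this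
      constructor <;> linarith
    obtain ⟨w, hw, hw1⟩ := hA.intermediate_value hx hy hc.continuousOn h1
    obtain ⟨k, hk⟩ := hv w hw
    have h2 : (2 * k : ℝ) = 2 * m + 1 := by linarith
    have h3 : (2 * k : ℤ) = 2 * m + 1 := by exact_mod_cast h2
    omega
  rcases lt_trichotomy (h x) (h y) with h1 | h1 | h1
  · exact absurd h1 (key x hx y hy)
  · exact h1
  · exact absurd h1 (key y hy x hx)

theorem coe_eq_zero_iff {x : ℝ} : (x : AddCircle (2 : ℝ)) = 0 ↔ ∃ n : ℤ, x = 2 * n := by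
  rw [AddCircle.coe_eq_zero_iff]
  constructor
  · rintro ⟨n, hn⟩
    exact ⟨n, by rw [← hn]; simp [mul_comm]⟩
  · rintro ⟨n, hn⟩
    exact ⟨n, by rw [hn]; simp [mul_comm]⟩

/-- **Unicoherence, functional form.** -/
theorem not_both {A B : Set ℂ} (hA : IsClosed A) (hB : IsClosed B) (hAB : A ∪ B = univ)
    (hAc : IsPreconnected A) (hBc : IsPreconnected B) {φ : ℂ → ℝ} (hφ : Continuous φ)
    (h01 : ∀ x ∈ A ∩ B, φ x = 0 ∨ φ x = 1) {p q : ℂ} (hp : p ∈ A ∩ B) (hq : q ∈ A ∩ B)
    (hp0 : φ p = 0) (hq1 : φ q = 1) : False := by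
  classical
  have : Fact ((0 : ℝ) < 2) := ⟨by norm_num⟩
  let f : ℂ → AddCircle (2 : ℝ) := A.piecewise (fun x => ((φ x : ℝ) : AddCircle (2 : ℝ)))
    (fun x => ((-φ x : ℝ) : AddCircle (2 : ℝ)))
  have hcoe : Continuous fun x : ℝ => (x : AddCircle (2 : ℝ)) := AddCircle.continuous_mk' 2
  have hfr : frontier A ⊆ A ∩ B := by
    intro x hx
    refine ⟨hA.frontier_subset hx, ?_⟩
    have h1 : x ∈ closure Aᶜ := by
      rw [frontier_eq_closure_inter_closure] at hx
      exact hx.2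
    have h2 : Aᶜ ⊆ B := by
      intro y hy
      have : y ∈ A ∪ B := by rw [hAB]; trivial
      exact this.resolve_left hy
    exact hB.closure_subset_iff.2 h2 h1
  have hglue : ∀ x ∈ A ∩ B, ((φ x : ℝ) : AddCircle (2 : ℝ)) = ((-φ x : ℝ) : AddCircle (2 : ℝ)) := by
    intro x hx
    rw [← sub_eq_zero, ← AddCircle.coe_sub, coe_eq_zero_iff]
    rcases h01 x hx with h | h
    · exact ⟨0, by rw [h]; simp⟩
    · exact ⟨1, by rw [h]; norm_num⟩
  have hf : Continuous f := by
    refine Continuous.piecewise (fun x hx => hglue x (hfr hx)) ?_ ?_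
    · exact hcoe.comp hφ
    · exact hcoe.comp hφ.neg
  obtain ⟨e₀, he₀⟩ : ∃ e₀ : ℝ, (e₀ : AddCircle (2 : ℝ)) = f 0 := QuotientAddGroup.mk_surjective _
  have hcov : IsCoveringMap ((↑) : ℝ → AddCircle (2 : ℝ)) := AddCircle.isCoveringMap_coe 2
  obtain ⟨F, ⟨-, hF⟩, -⟩ := hcov.existsUnique_continuousMap_lifts ⟨f, hf⟩ (0 : ℂ) e₀ he₀
  have hF' : ∀ x, ((F x : ℝ) : AddCircle (2 : ℝ)) = f x := fun x => congrFun hF x
  have hFA : ∀ x ∈ A, ∃ n : ℤ, F x - φ x = 2 * n := by
    intro x hx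
    rw [← coe_eq_zero_iff, AddCircle.coe_sub, hF' x, sub_eq_zero]
    exact piecewise_eq_of_mem _ _ _ hx
  have hFB : ∀ x ∈ B, ∃ n : ℤ, F x + φ x = 2 * n := by
    intro x hx
    have h1 : f x = ((-φ x : ℝ) : AddCircle (2 : ℝ)) := by
      by_cases hxA : x ∈ A
      · rw [← hglue x ⟨hxA, hx⟩]
        exact piecewise_eq_of_mem _ _ _ hxA
      · exact piecewise_eq_of_notMem _ _ _ hxA
    rw [← coe_eq_zero_iff, AddCircle.coe_add, hF' x, h1, ← AddCircle.coe_add, neg_add_cancel]
    rfl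
  have h1 := const_of_even hAc (F.continuous.sub hφ) hFA hp.1 hq.1
  have h2 := const_of_even hBc (F.continuous.add hφ) hFB hp.2 hq.2
  simp only [Pi.sub_apply, Pi.add_apply, hp0, hq1] at h1 h2
  linarith

end Vale.Agent.P032.H926
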